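import Vale.Agent.P129s.Ess

/-!
# P129: countably generated algebras of operators on a space without separable quotients
-/

open Submodule

namespace Vale.Agent.P129s

open Vale.Agent.P129

variable {X : Type*} [NormedAddCommGroup X] [NormedSpace ℂ X] [CompleteSpace X]

/-- the closure of an increasing union of subspaces of infinite codimension -/
theorem infinite_limit (hbad : ¬ SQ ℂ X) (Z : ℕ → Submodule ℂ X) (hmono : Monotone Z)
    (hcl : ∀ n, IsClosed (Z n : Set X)) (hinf : ∀ n, ¬ FiniteDimensional ℂ (X ⧸ Z n)) :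
    ¬ FiniteDimensional ℂ (X ⧸ (⨆ n, Z n).topologicalClosure) := by
  intro hfin
  set Y : Submodule ℂ X := (⨆ n, Z n).topologicalClosure with hY
  have hYc : IsClosed (Y : Set X) := Submodule.isClosed_topologicalClosure _
  have hle : ∀ n, Z n ≤ Y := fun n => (le_iSup Z n).trans (Submodule.le_topologicalClosure _)
  apply hbad
  refine sq_of_finite_codim Y hYc hfin ?_
  refine sq_of_increasing (fun n => (Z n).comap Y.subtype) ?_ ?_ ?_ ?_
  · intro m n hmn
    exact Submodule.comap_mono (hmono hmn)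
  · intro n
    exact (hcl n).preimage (by fun_prop : Continuous (Y.subtype : Y → X))
  · intro n hn
    apply hinf n
    have h1 : Y ≤ Z n := by
      intro y hy
      have : (⟨y, hy⟩ : Y) ∈ (Z n).comap Y.subtype := by rw [hn]; trivial
      exact this
    have hsurj : Function.Surjective (Submodule.mapQ Y (Z n) LinearMap.id h1) := by
      intro z
      obtain ⟨x, rfl⟩ := Submodule.mkQ_surjective _ z
      exact ⟨Y.mkQ x, by simp⟩
    exact Module.Finite.of_surjective _ hsurj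
  · rw [eq_top_iff]
    intro y _
    have h1 : (y : X) ∈ closure ((⨆ n, Z n : Submodule ℂ X) : Set X) := y.2
    have h2 : y ∈ closure ((⨆ n, (Z n).comap Y.subtype : Submodule ℂ Y) : Set Y) := by
      rw [Metric.mem_closure_iff] at h1 ⊢
      intro ε hε
      obtain ⟨w, hw, hwd⟩ := h1 ε hε
      obtain ⟨n, hn⟩ := (Submodule.mem_iSup_of_directed _ hmono.directed_le).1 hw
      refine ⟨⟨w, hle n hn⟩, ?_, hwd⟩
      exact Submodule.mem_iSup_of_mem n hn
    exact h2

/-- the operators with range in `Y` -/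
def JY (Y : Submodule ℂ X) : Submodule ℂ (X →L[ℂ] X) where
  carrier := {S | ∀ x, S x ∈ Y}
  add_mem' := fun h1 h2 x => Y.add_mem (h1 x) (h2 x)
  zero_mem' := fun _ => Y.zero_mem
  smul_mem' := fun c _ h x => Y.smul_mem c (h x)

theorem JY_mono {Y Y' : Submodule ℂ X} (h : Y ≤ Y') : JY Y ≤ JY Y' := fun _ hS x => h (hS x)

/-- admissible subspaces -/
def Adm (T : ℕ → X →L[ℂ] X) (Y : Submodule ℂ X) : Prop :=
  IsClosed (Y : Set X) ∧ ¬ FiniteDimensional ℂ (X ⧸ Y) ∧ ∀ n, ∀ x ∈ Y, T n x ∈ Y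

/-- a stable subspace -/
theorem exists_stable (hX : ¬ FiniteDimensional ℂ X) (hbad : ¬ SQ ℂ X) (T : ℕ → X →L[ℂ] X)
    (V : ℕ → Submodule ℂ (X →L[ℂ] X)) (hV : ∀ n, FiniteDimensional ℂ (V n)) :
    ∃ Y, Adm T Y ∧ ∀ Y', Adm T Y' → Y ≤ Y' → ∀ n, ∀ S ∈ V n, S ∈ JY Y' → S ∈ JY Y := by
  classical
  have hbound : ∀ (n : ℕ) (Y : Submodule ℂ X),
      Module.finrank ℂ (JY Y ⊓ V n : Submodule ℂ (X →L[ℂ] X)) ≤ Module.finrank ℂ (V n) := by
    intro n Y
    haveI := hV n
    exact Submodule.finrank_mono inf_le_right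
  have hmax : ∀ (n : ℕ) (Y : {Y // Adm T Y}), ∃ Y' : {Y // Adm T Y}, Y.1 ≤ Y'.1 ∧
      ∀ Y'' : {Y // Adm T Y}, Y.1 ≤ Y''.1 →
        Module.finrank ℂ (JY Y''.1 ⊓ V n : Submodule ℂ (X →L[ℂ] X)) ≤
          Module.finrank ℂ (JY Y'.1 ⊓ V n : Submodule ℂ (X →L[ℂ] X)) := by
    intro n Y
    set A : Set ℕ := {d | ∃ Y' : {Y // Adm T Y}, Y.1 ≤ Y'.1 ∧
      Module.finrank ℂ (JY Y'.1 ⊓ V n : Submodule ℂ (X →L[ℂ] X)) = d} with hA
    have hne : A.Nonempty := ⟨_, Y, le_rfl, rfl⟩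
    have hbd : BddAbove A := ⟨Module.finrank ℂ (V n), by
      rintro _ ⟨Y', _, rfl⟩
      exact hbound n Y'.1⟩
    obtain ⟨Y', hY', hd⟩ := Nat.sSup_mem hne hbd
    refine ⟨Y', hY', fun Y'' hY'' => ?_⟩
    rw [hd]
    exact le_csSup hbd ⟨Y'', hY'', rfl⟩
  choose f hf1 hf2 using hmax
  have hbot : Adm T ⊥ := by
    refine ⟨isClosed_singleton, ?_, ?_⟩
    · intro h
      exact hX (Module.Finite.equiv (Submodule.quotEquivOfEqBot (⊥ : Submodule ℂ X) rfl))
    · intro n x hx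
      rw [Submodule.mem_bot] at hx ⊢
      rw [hx, map_zero]
  let Z : ℕ → {Y // Adm T Y} := fun n => Nat.rec ⟨⊥, hbot⟩ (fun n Y => f n Y) n
  have hZ : ∀ n, Z (n + 1) = f n (Z n) := fun n => rfl
  have hmono : Monotone fun n => (Z n).1 := by
    refine monotone_nat_of_le_succ fun n => ?_
    show (Z n).1 ≤ (Z (n + 1)).1
    rw [hZ]
    exact hf1 n (Z n)
  set Y : Submodule ℂ X := (⨆ n, (Z n).1).topologicalClosure with hY
  have hle : ∀ n, (Z n).1 ≤ Y := fun n =>
    (le_iSup (fun n => (Z n).1) n).trans (Submodule.le_topologicalClosure _)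
  have hYA : Adm T Y := by
    refine ⟨Submodule.isClosed_topologicalClosure _,
      infinite_limit hbad (fun n => (Z n).1) hmono (fun n => (Z n).2.1) (fun n => (Z n).2.2.1), ?_⟩
    intro m x hx
    have h1 : x ∈ closure ((⨆ n, (Z n).1 : Submodule ℂ X) : Set X) := hx
    have h2 : T m x ∈ closure ((⨆ n, (Z n).1 : Submodule ℂ X) : Set X) := by
      refine map_mem_closure (T m).continuous h1 ?_
      intro w hw
      obtain ⟨n, hn⟩ := (Submodule.mem_iSup_of_directed _ hmono.directed_le).1 hw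
      exact Submodule.mem_iSup_of_mem n ((Z n).2.2.2 m w hn)
    exact h2
  refine ⟨Y, hYA, ?_⟩
  intro Y' hY' hYY' n S hSV hSJ
  have h1 : JY (Z (n + 1)).1 ⊓ V n ≤ JY Y' ⊓ V n :=
    inf_le_inf_right _ (JY_mono ((hle (n + 1)).trans hYY'))
  have h2 : Module.finrank ℂ (JY Y' ⊓ V n : Submodule ℂ (X →L[ℂ] X)) ≤
      Module.finrank ℂ (JY (Z (n + 1)).1 ⊓ V n : Submodule ℂ (X →L[ℂ] X)) := by
    rw [hZ]
    exact hf2 n (Z n) ⟨Y', hY'⟩ ((hle n).trans hYY')
  haveI := hV n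
  haveI : FiniteDimensional ℂ (JY Y' ⊓ V n : Submodule ℂ (X →L[ℂ] X)) :=
    Submodule.finiteDimensional_of_le inf_le_right
  have h3 := Submodule.eq_of_le_of_finrank_le h1 h2
  have h4 : S ∈ JY (Z (n + 1)).1 ⊓ V n := by
    rw [h3]
    exact ⟨hSJ, hSV⟩
  exact JY_mono (hle (n + 1)) h4.1

/-- the algebra is an increasing union of finite-dimensional subspaces -/
theorem exists_filtration (T : ℕ → X →L[ℂ] X) :
    ∃ V : ℕ → Submodule ℂ (X →L[ℂ] X), (∀ n, FiniteDimensional ℂ (V n)) ∧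
      ∀ S ∈ Algebra.adjoin ℂ (Set.range T), ∃ n, S ∈ V n := by
  obtain ⟨e, he⟩ := exists_surjective_nat (List ℕ)
  set V : ℕ → Submodule ℂ (X →L[ℂ] X) := fun n =>
    Submodule.span ℂ ((fun k => (((e k).map T).prod : X →L[ℂ] X)) '' (Set.Iic n)) with hV
  have hmono : Monotone V := fun m n hmn =>
    Submodule.span_mono (Set.image_mono (Set.Iic_subset_Iic.2 hmn))
  refine ⟨V, fun n => FiniteDimensional.span_of_finite ℂ ((Set.finite_Iic n).image _), ?_⟩
  intro S hS
  have h1 : S ∈ (Algebra.adjoin ℂ (Set.range T)).toSubmodule := hS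
  rw [Algebra.adjoin_eq_span] at h1
  have h2 : Submodule.span ℂ ((Submonoid.closure (Set.range T) : Submonoid (X →L[ℂ] X)) :
      Set (X →L[ℂ] X)) ≤ ⨆ n, V n := by
    rw [Submodule.span_le]
    intro R hR
    have h3 : ∃ l : List ℕ, R = (l.map T).prod := by
      induction hR using Submonoid.closure_induction with
      | mem x hx =>
        obtain ⟨n, rfl⟩ := hx
        exact ⟨[n], by simp⟩
      | one => exact ⟨[], by simp⟩
      | mul x y _ _ hx hy =>
        obtain ⟨l, rfl⟩ := hx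
        obtain ⟨m, rfl⟩ := hy
        exact ⟨l ++ m, by simp⟩
    obtain ⟨l, rfl⟩ := h3
    obtain ⟨k, rfl⟩ := he l
    exact Submodule.mem_iSup_of_mem k (Submodule.subset_span ⟨k, Set.mem_Iic.2 le_rfl, rfl⟩)
  exact (Submodule.mem_iSup_of_directed _ hmono.directed_le).1 (h2 h1)

end Vale.Agent.P129s
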