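import Vale.Agent.P129s.Alg

/-!
# P129: countably generated algebras of operators, main theorem
-/

open Submodule

namespace Vale.Agent.P129s

open Vale.Agent.P129

variable {X : Type*} [NormedAddCommGroup X] [NormedSpace ℂ X] [CompleteSpace X]

/-- invariance under the generated algebra -/
theorem adjoin_inv (T : ℕ → X →L[ℂ] X) (Y : Submodule ℂ X) (hY : ∀ n, ∀ x ∈ Y, T n x ∈ Y)
    {S : X →L[ℂ] X} (hS : S ∈ Algebra.adjoin ℂ (Set.range T)) : ∀ x ∈ Y, S x ∈ Y := by
  induction hS using Algebra.adjoin_induction with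
  | mem x hx =>
    obtain ⟨n, rfl⟩ := hx
    exact hY n
  | algebraMap r =>
    intro x hx
    rw [Algebra.algebraMap_eq_smul_one]
    exact Y.smul_mem r hx
  | add R R' _ _ h1 h2 => intro x hx; exact Y.add_mem (h1 x hx) (h2 x hx)
  | mul R R' _ _ h1 h2 => intro x hx; exact h1 _ (h2 x hx)

/-- adding a separable subspace does not destroy infinite codimension -/
theorem infinite_sup (hbad : ¬ SQ ℂ X) (Y W : Submodule ℂ X) (hY : IsClosed (Y : Set X))
    (hinf : ¬ FiniteDimensional ℂ (X ⧸ Y)) (hW : TopologicalSpace.IsSeparable (W : Set X)) :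
    ¬ FiniteDimensional ℂ (X ⧸ (Y ⊔ W).topologicalClosure) := by
  intro hfin
  apply hbad
  obtain ⟨c, hc, hcW⟩ := hW
  obtain ⟨F, hF⟩ := Submodule.exists_isCompl (Y ⊔ W).topologicalClosure
  have hFfin : FiniteDimensional ℂ F :=
    Module.Finite.equiv (Submodule.quotientEquivOfIsCompl _ F hF)
  obtain ⟨t, ht⟩ : ∃ t : Finset X, Submodule.span ℂ (t : Set X) = F :=
    (Submodule.fg_iff_finiteDimensional F).2 hFfin
  refine ⟨Y, c ∪ t, hY, hc.union t.countable_toSet, ?_, hinf⟩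
  set C := (Submodule.span ℂ (c ∪ (t : Set X)) ⊔ Y).topologicalClosure with hC
  have hCc : IsClosed (C : Set X) := Submodule.isClosed_topologicalClosure _
  have h1 : F ≤ C := by
    rw [← ht]
    refine le_trans ?_ (Submodule.le_topologicalClosure _)
    exact (Submodule.span_mono Set.subset_union_right).trans le_sup_left
  have h2 : Y ≤ C := le_sup_right.trans (Submodule.le_topologicalClosure _)
  have h3 : W ≤ C := by
    intro w hw
    have h4 : c ⊆ (C : Set X) := fun z hz =>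
      Submodule.le_topologicalClosure _ (Submodule.mem_sup_left
        (Submodule.subset_span (Or.inl hz)))
    exact closure_minimal h4 hCc (hcW hw)
  have h5 : (Y ⊔ W).topologicalClosure ≤ C :=
    Submodule.topologicalClosure_minimal _ (sup_le h2 h3) hCc
  rw [eq_top_iff, ← hF.sup_eq_top]
  exact sup_le h5 h1

/-- the closed subspace generated by the range of `S` -/
theorem exists_gen (T : ℕ → X →L[ℂ] X) (S : X →L[ℂ] X)
    (hS : TopologicalSpace.IsSeparable (Set.range S)) :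
    ∃ W : Submodule ℂ X, TopologicalSpace.IsSeparable (W : Set X) ∧
      (∀ x, S x ∈ W) ∧ (∀ n, ∀ x ∈ W, T n x ∈ W) := by
  set U : Set X := ⋃ l : List ℕ, ((l.map T).prod : X →L[ℂ] X) '' (Set.range S) with hU
  have hUs : TopologicalSpace.IsSeparable U :=
    TopologicalSpace.IsSeparable.iUnion fun l =>
      hS.image ((l.map T).prod : X →L[ℂ] X).continuous
  refine ⟨Submodule.span ℂ U, hUs.span (R := ℂ), ?_, ?_⟩
  · intro x
    refine Submodule.subset_span ?_
    exact Set.mem_iUnion.2 ⟨[], _, ⟨x, rfl⟩, by simp⟩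
  · intro n x hx
    have h3 : Submodule.span ℂ U ≤ (Submodule.span ℂ U).comap (T n : X →ₗ[ℂ] X) := by
      rw [Submodule.span_le]
      intro u hu
      obtain ⟨l, _, ⟨x, rfl⟩, rfl⟩ := Set.mem_iUnion.1 hu
      refine Submodule.subset_span (Set.mem_iUnion.2 ⟨n :: l, _, ⟨x, rfl⟩, ?_⟩)
      simp
    exact h3 hx

/-- the structure theorem for arbitrary sequences -/
theorem structure_seq (hX : ¬ FiniteDimensional ℂ X) (hbad : ¬ HasSepQuot ℂ X)
    (T : ℕ → X →L[ℂ] X) :
    ∃ Y : Submodule ℂ X, IsClosed (Y : Set X) ∧ ¬ FiniteDimensional ℂ (X ⧸ Y) ∧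
      (∀ n, ∀ x ∈ Y, T n x ∈ Y) ∧
      (∀ S ∈ Algebra.adjoin ℂ (Set.range T), ∀ Y' : Submodule ℂ X, Y ≤ Y' →
        IsClosed (Y' : Set X) → ¬ FiniteDimensional ℂ (X ⧸ Y') → (∀ n, ∀ x ∈ Y', T n x ∈ Y') →
        (∀ x, S x ∈ Y') → ∀ x, S x ∈ Y) ∧
      (∀ S ∈ Algebra.adjoin ℂ (Set.range T), TopologicalSpace.IsSeparable (Set.range S) →
        ∀ x, S x ∈ Y) ∧
      (∀ S ∈ Algebra.adjoin ℂ (Set.range T), (∀ n x, S (T n x) - T n (S x) ∈ Y) →
        ∃ c : ℂ, ∀ x, S x - c • x ∈ Y) := by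
  have hbad' : ¬ SQ ℂ X := fun h => hbad (hasSepQuot_of_SQ h)
  obtain ⟨V, hV, hVS⟩ := exists_filtration T
  obtain ⟨Y, ⟨hYc, hYinf, hYT⟩, hst⟩ := exists_stable hX hbad' T V hV
  have hstable : ∀ S ∈ Algebra.adjoin ℂ (Set.range T), ∀ Y' : Submodule ℂ X, Y ≤ Y' →
        IsClosed (Y' : Set X) → ¬ FiniteDimensional ℂ (X ⧸ Y') → (∀ n, ∀ x ∈ Y', T n x ∈ Y') →
        (∀ x, S x ∈ Y') → ∀ x, S x ∈ Y := by
    intro S hS Y' h1 h2 h3 h4 h5
    obtain ⟨n, hn⟩ := hVS S hS
    exact hst Y' ⟨h2, h3, h4⟩ h1 n S hn h5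
  refine ⟨Y, hYc, hYinf, hYT, hstable, ?_, ?_⟩
  · intro S hS hsep
    obtain ⟨W, hW, hSW, hWT⟩ := exists_gen T S hsep
    refine hstable S hS (Y ⊔ W).topologicalClosure
      (le_sup_left.trans (Submodule.le_topologicalClosure _))
      (Submodule.isClosed_topologicalClosure _) (infinite_sup hbad' Y W hYc hYinf hW) ?_
      (fun x => Submodule.le_topologicalClosure _ (Submodule.mem_sup_right (hSW x)))
    intro n x hx
    have h1 : x ∈ closure ((Y ⊔ W : Submodule ℂ X) : Set X) := hx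
    have h2 : T n x ∈ closure ((Y ⊔ W : Submodule ℂ X) : Set X) := by
      refine map_mem_closure (T n).continuous h1 ?_
      intro w hw
      obtain ⟨a, ha, b, hb, rfl⟩ := Submodule.mem_sup.1 hw
      rw [map_add]
      exact Submodule.add_mem_sup (hYT n a ha) (hWT n b hb)
    exact h2
  · intro S hS hcomm
    obtain ⟨Y', c, h1, h2, h3, h4, h5⟩ := estep hbad' (Set.range T ∪ {S}) S (Or.inr rfl) Y (by
      rintro R (⟨n, rfl⟩ | hR) x
      · rw [← neg_sub]
        exact Y.neg_mem (hcomm n x)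
      · rw [Set.mem_singleton_iff.1 hR, sub_self]
        exact Y.zero_mem) hYc hYinf (by
      rintro R (⟨n, rfl⟩ | hR) x hx
      · exact hYT n x hx
      · rw [Set.mem_singleton_iff.1 hR]
        exact adjoin_inv T Y hYT hS x hx)
    refine ⟨c, ?_⟩
    have h6 : S - c • (1 : X →L[ℂ] X) ∈ Algebra.adjoin ℂ (Set.range T) :=
      Subalgebra.sub_mem _ hS (Subalgebra.smul_mem _ (Subalgebra.one_mem _) c)
    have h7 := hstable _ h6 Y' h1 h2 h3 (fun n x hx => h4 (T n) (Or.inl ⟨n, rfl⟩) x hx)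
      (fun x => by simpa using h5 x)
    intro x
    simpa using h7 x

end Vale.Agent.P129s
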