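import Vale.Agent.P129s.Ess
import Vale.Agent.P129.Stmt

/-!
# P129: commuting sequences act by scalars
-/

namespace Vale.Agent.P129s

open Vale.Agent.P129

variable {X : Type*} [NormedAddCommGroup X] [NormedSpace ℂ X] [CompleteSpace X]

/-- with operators in the closed span, pointwise -/
theorem commuting_strong (hX : ¬ FiniteDimensional ℂ X) (hbad : ¬ HasSepQuot ℂ X)
    (T : ℕ → X →L[ℂ] X) (hT : ∀ i j, T i * T j = T j * T i) :
    ∃ (Y : Submodule ℂ X) (l : ℕ → ℂ), IsClosed (Y : Set X) ∧ ¬ FiniteDimensional ℂ (X ⧸ Y) ∧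
      (∀ n x, T n x - l n • x ∈ Y) ∧
      (∀ S : X →L[ℂ] X, (∀ n, S * T n = T n * S) → ∀ x ∈ Y, S x ∈ Y) ∧
      (∀ S : X →L[ℂ] X,
        (∀ x, S x ∈ (Submodule.span ℂ (Set.range fun n => T n x)).topologicalClosure) →
        ∃ c : ℂ, ∀ x, S x - c • x ∈ Y) := by
  obtain ⟨Y, l, h1, h2, h3, h4, h5⟩ := main_hyper hX (fun h => hbad (hasSepQuot_of_SQ h)) T
    (fun i j x => congrArg (fun S : X →L[ℂ] X => S x) (hT i j))
  exact ⟨Y, l, h1, h2, h3, fun S hS => h4 S fun n x =>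
    congrArg (fun R : X →L[ℂ] X => R x) (hS n), h5⟩

theorem commuting (hX : ¬ FiniteDimensional ℂ X) (hbad : ¬ HasSepQuot ℂ X) :
    EssCommutingActByScalars X := by
  intro T hT
  obtain ⟨Y, l, h1, h2, h3, h4, h5⟩ := main_ess hX (fun h => hbad (hasSepQuot_of_SQ h)) T hT
  exact ⟨Y, l, h1, h2, h3, fun S hS => h4 S fun n x =>
    congrArg (fun R : X →L[ℂ] X => R x) (hS n), h5⟩

end Vale.Agent.P129s
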