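import Vale.Agent.P129.Defs

/-!
# P129: internal form of the existence of separable quotients
-/

open Submodule

namespace Vale.Agent.P129s

open Vale.Agent.P129

/-- internal form -/
def SQ (𝕜 X : Type*) [RCLike 𝕜] [NormedAddCommGroup X] [NormedSpace 𝕜 X] : Prop :=
  ∃ (M : Submodule 𝕜 X) (S : Set X), IsClosed (M : Set X) ∧ S.Countable ∧
    (Submodule.span 𝕜 S ⊔ M).topologicalClosure = ⊤ ∧ ¬ FiniteDimensional 𝕜 (X ⧸ M)

variable {𝕜 X Z : Type*} [RCLike 𝕜] [NormedAddCommGroup X] [NormedSpace 𝕜 X]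
  [NormedAddCommGroup Z] [NormedSpace 𝕜 Z]

theorem continuous_mkQ (M : Submodule 𝕜 X) : Continuous (M.mkQ : X → X ⧸ M) :=
  continuous_quot_mk

/-- R1 -/
theorem hasSepQuot_of_SQ (h : SQ 𝕜 X) : HasSepQuot 𝕜 X := by
  obtain ⟨M, S, hM, hS, hd, hinf⟩ := h
  refine ⟨M, hM, ?_, hinf⟩
  have h1 : TopologicalSpace.IsSeparable (M.mkQ '' ((Submodule.span 𝕜 S : Submodule 𝕜 X) : Set X)) :=
    (hS.isSeparable.span (R := 𝕜)).image (continuous_mkQ M)
  have h2 : Dense (M.mkQ '' ((Submodule.span 𝕜 S : Submodule 𝕜 X) : Set X)) := by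
    have h3 : Dense (((Submodule.span 𝕜 S ⊔ M : Submodule 𝕜 X)) : Set X) := by
      rw [Submodule.dense_iff_topologicalClosure_eq_top]
      exact hd
    have h4 : Dense (M.mkQ '' (((Submodule.span 𝕜 S ⊔ M : Submodule 𝕜 X)) : Set X)) :=
      DenseRange.dense_image (Submodule.mkQ_surjective M).denseRange (continuous_mkQ M) h3
    refine h4.mono ?_
    rintro _ ⟨x, hx, rfl⟩
    obtain ⟨a, ha, b, hb, rfl⟩ := Submodule.mem_sup.1 hx
    refine ⟨a, ha, ?_⟩
    rw [map_add]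
    have : M.mkQ b = 0 := by simpa using hb
    rw [this, add_zero]
  have h5 : TopologicalSpace.IsSeparable (Set.univ : Set (X ⧸ M)) := by
    rw [← h2.closure_eq]
    exact h1.closure
  exact TopologicalSpace.isSeparable_univ_iff.1 h5

theorem SQ_of_hasSepQuot (h : HasSepQuot 𝕜 X) : SQ 𝕜 X := by
  obtain ⟨M, hM, hsep, hinf⟩ := h
  obtain ⟨t, ht, htd⟩ := TopologicalSpace.exists_countable_dense (X ⧸ M)
  choose g hg using Submodule.mkQ_surjective M
  refine ⟨M, g '' t, hM, ht.image g, ?_, hinf⟩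
  rw [← Submodule.dense_iff_topologicalClosure_eq_top]
  intro x
  rw [mem_closure_iff_nhds]
  intro U hU
  obtain ⟨V, hVU, hVo, hxV⟩ := mem_nhds_iff.1 hU
  have hopen : IsOpen (M.mkQ '' V) := by
    have := (QuotientAddGroup.isOpenMap_coe (N := M.toAddSubgroup)) V hVo
    exact this
  obtain ⟨q, hq, hqt⟩ := htd.inter_open_nonempty _ hopen ⟨M.mkQ x, x, hxV, rfl⟩
  obtain ⟨v, hv, rfl⟩ := hq
  refine ⟨v, hVU hv, ?_⟩
  have h1 : g (M.mkQ v) ∈ Submodule.span 𝕜 (g '' t) := Submodule.subset_span ⟨_, hqt, rfl⟩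
  have h2 : v - g (M.mkQ v) ∈ M := by
    rw [← Submodule.Quotient.mk_eq_zero, Submodule.Quotient.mk_sub]
    have := hg (M.mkQ v)
    simp only [Submodule.mkQ_apply] at this ⊢
    rw [this, sub_self]
  have e : v = g (M.mkQ v) + (v - g (M.mkQ v)) := by abel
  rw [e]
  exact Submodule.add_mem_sup h1 h2

theorem hasSepQuot_iff : HasSepQuot 𝕜 X ↔ SQ 𝕜 X := ⟨SQ_of_hasSepQuot, hasSepQuot_of_SQ⟩

end Vale.Agent.P129s
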