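import Vale.Agent.P129.Dense0
import Vale.Agent.P129.Fam
import Vale.Agent.P129s.SQ

/-!
P129: an operator with dense range that is not onto gives a separable quotient.
-/

namespace Vale.Agent.P129s

open Vale.Agent.P129

variable {𝕜 X Z : Type*} [RCLike 𝕜] [NormedAddCommGroup X] [NormedSpace 𝕜 X]
  [NormedAddCommGroup Z] [NormedSpace 𝕜 Z]

theorem hasSepQuot_of_denseRange [CompleteSpace X] [CompleteSpace Z] (R : Z →L[𝕜] X)
    (hR : DenseRange R) (hns : ¬ Function.Surjective R) : HasSepQuot 𝕜 X := by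
  obtain ⟨C, h1, h2, h3, h4, h5, h6⟩ := OR.props R hR hns
  exact core C h1 h2 h3 h4 h5 h6

theorem sq_of_denseRange [CompleteSpace X] [CompleteSpace Z] (R : Z →L[𝕜] X)
    (hR : DenseRange R) (hns : ¬ Function.Surjective R) : SQ 𝕜 X :=
  hasSepQuot_iff.1 (hasSepQuot_of_denseRange R hR hns)

end Vale.Agent.P129s
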