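import Vale.Agent.P129s.Hyper
import Vale.Agent.P129.Stmt

/-!
# P129: sequences of operators commuting modulo operators with separable range
-/

open Submodule

namespace Vale.Agent.P129s

open Vale.Agent.P129

variable {X : Type*} [NormedAddCommGroup X] [NormedSpace ℂ X] [CompleteSpace X]

/-- one step -/
theorem estep (hbad : ¬ SQ ℂ X) (C : Set (X →L[ℂ] X)) (T : X →L[ℂ] X) (hTC : T ∈ C)
    (Y : Submodule ℂ X) (hT : ∀ S ∈ C, ∀ x, S (T x) - T (S x) ∈ Y)
    (hY : IsClosed (Y : Set X)) (hinf : ¬ FiniteDimensional ℂ (X ⧸ Y))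
    (hinv : ∀ S ∈ C, ∀ x ∈ Y, S x ∈ Y) :
    ∃ (Y' : Submodule ℂ X) (l : ℂ), Y ≤ Y' ∧ IsClosed (Y' : Set X) ∧
      ¬ FiniteDimensional ℂ (X ⧸ Y') ∧ (∀ S ∈ C, ∀ x ∈ Y', S x ∈ Y') ∧
      ∀ x, T x - l • x ∈ Y' := by
  have : IsClosed (Y : Set X) := hY
  have hbadQ : ¬ SQ ℂ (X ⧸ Y) := fun h => hbad (sq_of_quotient Y h)
  -- the induced operators
  have hker : ∀ S ∈ C, Y ≤ LinearMap.ker ((Y.mkQL.comp S : X →L[ℂ] X ⧸ Y) : X →ₗ[ℂ] X ⧸ Y) := by
    intro S hS x hx
    rw [LinearMap.mem_ker]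
    simpa using hinv S hS x hx
  let TQ : ∀ S, S ∈ C → (X ⧸ Y) →L[ℂ] (X ⧸ Y) := fun S hS => Y.liftQL (Y.mkQL.comp S) (hker S hS)
  have hTQm : ∀ S (hS : S ∈ C) x, TQ S hS (Y.mkQ x) = Y.mkQ (S x) := by
    intro S hS x
    simp [TQ]
  obtain ⟨l, hl⟩ := single hinf hbadQ (TQ T hTC)
  set R : (X ⧸ Y) →L[ℂ] (X ⧸ Y) := TQ T hTC - l • ContinuousLinearMap.id ℂ (X ⧸ Y) with hR
  set D : Submodule ℂ (X ⧸ Y) := (LinearMap.range (R : (X ⧸ Y) →ₗ[ℂ] (X ⧸ Y))).topologicalClosure
    with hD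
  have hDc : IsClosed (D : Set (X ⧸ Y)) := Submodule.isClosed_topologicalClosure _
  refine ⟨D.comap Y.mkQ, l, ?_, hDc.preimage (continuous_mkQ Y), ?_, ?_, ?_⟩
  · intro x hx
    rw [Submodule.mem_comap]
    have : Y.mkQ x = 0 := by simpa using hx
    rw [this]
    exact D.zero_mem
  · intro hfin
    apply hl
    have hsurj : Function.Surjective (Submodule.mapQ (D.comap Y.mkQ) D Y.mkQ le_rfl) := by
      intro z
      obtain ⟨y, rfl⟩ := Submodule.mkQ_surjective D z
      obtain ⟨x, rfl⟩ := Submodule.mkQ_surjective Y y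
      exact ⟨(D.comap Y.mkQ).mkQ x, by simp⟩
    exact Module.Finite.of_surjective _ hsurj
  · intro S hS x hx
    rw [Submodule.mem_comap] at hx ⊢
    rw [← hTQm S hS]
    have h1 : Y.mkQ x ∈ closure ((LinearMap.range (R : (X ⧸ Y) →ₗ[ℂ] (X ⧸ Y)) :
      Submodule ℂ (X ⧸ Y)) : Set (X ⧸ Y)) := hx
    have h2 : TQ S hS (Y.mkQ x) ∈ closure ((LinearMap.range (R : (X ⧸ Y) →ₗ[ℂ] (X ⧸ Y)) :
      Submodule ℂ (X ⧸ Y)) : Set (X ⧸ Y)) := by
      refine map_mem_closure (TQ S hS).continuous h1 ?_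
      rintro _ ⟨z, rfl⟩
      refine ⟨TQ S hS z, ?_⟩
      obtain ⟨w, rfl⟩ := Submodule.mkQ_surjective Y z
      simp only [ContinuousLinearMap.coe_coe, hR, sub_apply,
        smul_apply, ContinuousLinearMap.id_apply, map_sub, map_smul]
      have hcomm : Y.mkQ (T (S w)) = Y.mkQ (S (T w)) := by
        rw [eq_comm, ← sub_eq_zero, ← map_sub]
        exact (Submodule.Quotient.mk_eq_zero Y).2 (hT S hS w)
      simp only [hTQm, hcomm]
    exact h2
  · intro x
    rw [Submodule.mem_comap, map_sub, map_smul, ← hTQm T hTC]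
    exact Submodule.le_topologicalClosure _ ⟨Y.mkQ x, by simp [hR]⟩

/-- a closed separable subspace has infinite codimension -/
theorem infinite_of_separable (hX : ¬ FiniteDimensional ℂ X) (hbad : ¬ SQ ℂ X)
    (W : Submodule ℂ X) (hW : IsClosed (W : Set X))
    (hs : TopologicalSpace.IsSeparable (W : Set X)) : ¬ FiniteDimensional ℂ (X ⧸ W) := by
  intro hfin
  have hWX : ¬ FiniteDimensional ℂ W := by
    intro h
    exact hX (Module.Finite.of_submodule_quotient W)
  apply hbad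
  refine sq_of_finite_codim W hW hfin ?_
  have : TopologicalSpace.SeparableSpace W := hs.separableSpace
  obtain ⟨t, ht, htd⟩ := TopologicalSpace.exists_countable_dense W
  refine ⟨⊥, t, isClosed_singleton, ht, ?_, ?_⟩
  · rw [← Submodule.dense_iff_topologicalClosure_eq_top]
    exact htd.mono fun x hx => Submodule.mem_sup_left (Submodule.subset_span hx)
  · intro h
    exact hWX (Module.Finite.equiv (Submodule.quotEquivOfEqBot (⊥ : Submodule ℂ W) rfl))

/-- the closed invariant subspace generated by the ranges of the commutators -/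
theorem exists_start (hX : ¬ FiniteDimensional ℂ X) (hbad : ¬ SQ ℂ X) (T : ℕ → X →L[ℂ] X)
    (hT : ∀ i j, TopologicalSpace.IsSeparable (Set.range (T i * T j - T j * T i))) :
    ∃ W : Submodule ℂ X, IsClosed (W : Set X) ∧ ¬ FiniteDimensional ℂ (X ⧸ W) ∧
      (∀ i j x, T i (T j x) - T j (T i x) ∈ W) ∧ (∀ n, ∀ x ∈ W, T n x ∈ W) ∧
      ∀ S : X →L[ℂ] X, (∀ n x, S (T n x) = T n (S x)) → ∀ x ∈ W, S x ∈ W := by
  set U : Set X := ⋃ p : List ℕ × ℕ × ℕ,
    ((p.1.map T).prod : X →L[ℂ] X) '' (Set.range (T p.2.1 * T p.2.2 - T p.2.2 * T p.2.1)) with hU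
  have hUs : TopologicalSpace.IsSeparable U :=
    TopologicalSpace.IsSeparable.iUnion fun p =>
      (hT p.2.1 p.2.2).image ((p.1.map T).prod : X →L[ℂ] X).continuous
  set W : Submodule ℂ X := (Submodule.span ℂ U).topologicalClosure with hW
  have hWc : IsClosed (W : Set X) := Submodule.isClosed_topologicalClosure _
  have hWs : TopologicalSpace.IsSeparable (W : Set X) := by
    rw [hW, Submodule.topologicalClosure_coe]
    exact (hUs.span (R := ℂ)).closure
  have hmap : ∀ R : X →L[ℂ] X, (∀ u ∈ U, R u ∈ U) → ∀ x ∈ W, R x ∈ W := by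
    intro R hR x hx
    have h1 : x ∈ closure ((Submodule.span ℂ U : Submodule ℂ X) : Set X) := hx
    have h2 : R x ∈ closure ((Submodule.span ℂ U : Submodule ℂ X) : Set X) := by
      refine map_mem_closure R.continuous h1 ?_
      intro w hw
      have h3 : Submodule.span ℂ U ≤ (Submodule.span ℂ U).comap (R : X →ₗ[ℂ] X) := by
        rw [Submodule.span_le]
        intro u hu
        exact Submodule.subset_span (hR u hu)
      exact h3 hw
    exact h2
  refine ⟨W, hWc, infinite_of_separable hX hbad W hWc hWs, ?_, ?_, ?_⟩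
  · intro i j x
    refine Submodule.le_topologicalClosure _ (Submodule.subset_span ?_)
    refine Set.mem_iUnion.2 ⟨([], i, j), _, ⟨x, rfl⟩, ?_⟩
    simp
  · intro n
    refine hmap (T n) ?_
    intro u hu
    obtain ⟨⟨l, i, j⟩, _, ⟨x, rfl⟩, rfl⟩ := Set.mem_iUnion.1 hu
    refine Set.mem_iUnion.2 ⟨(n :: l, i, j), _, ⟨x, rfl⟩, ?_⟩
    simp
  · intro S hS
    refine hmap S ?_
    intro u hu
    obtain ⟨⟨l, i, j⟩, _, ⟨x, rfl⟩, rfl⟩ := Set.mem_iUnion.1 hu
    refine Set.mem_iUnion.2 ⟨(l, i, j), _, ⟨S x, rfl⟩, ?_⟩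
    have h1 : ∀ (l : List ℕ) (y : X), S (((l.map T).prod : X →L[ℂ] X) y) =
        ((l.map T).prod : X →L[ℂ] X) (S y) := by
      intro l
      induction l with
      | nil => intro y; simp
      | cons n l ih =>
        intro y
        simp only [List.map_cons, List.prod_cons, ContinuousLinearMap.mul_apply]
        rw [hS, ih]
    rw [h1]
    simp only [sub_apply, ContinuousLinearMap.mul_apply, map_sub, hS]

/-- the strong form, commuting modulo operators with separable range -/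
theorem main_ess (hX : ¬ FiniteDimensional ℂ X) (hbad : ¬ SQ ℂ X) (T : ℕ → X →L[ℂ] X)
    (hT : ∀ i j, TopologicalSpace.IsSeparable (Set.range (T i * T j - T j * T i))) :
    ∃ (Y : Submodule ℂ X) (l : ℕ → ℂ), IsClosed (Y : Set X) ∧ ¬ FiniteDimensional ℂ (X ⧸ Y) ∧
      (∀ n x, T n x - l n • x ∈ Y) ∧
      (∀ S : X →L[ℂ] X, (∀ n x, S (T n x) = T n (S x)) → ∀ x ∈ Y, S x ∈ Y) ∧
      (∀ S : X →L[ℂ] X,
        (∀ x, S x ∈ (Submodule.span ℂ (Set.range fun n => T n x)).topologicalClosure) →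
        ∃ c : ℂ, ∀ x, S x - c • x ∈ Y) := by
  classical
  set C : Set (X →L[ℂ] X) := {S | ∀ n x, S (T n x) = T n (S x)} ∪ Set.range T with hC
  have hTC : ∀ n, T n ∈ C := fun n => Or.inr ⟨n, rfl⟩
  obtain ⟨W, hWc, hWinf, hWcomm, hWT, hWS⟩ := exists_start hX hbad T hT
  let P : Submodule ℂ X → Prop := fun Y => IsClosed (Y : Set X) ∧ ¬ FiniteDimensional ℂ (X ⧸ Y) ∧
    (∀ S ∈ C, ∀ x ∈ Y, S x ∈ Y) ∧ W ≤ Y
  have hstep' : ∀ (n : ℕ) (Y : {Y // P Y}), ∃ (Y' : {Y // P Y}) (l : ℂ), Y.1 ≤ Y'.1 ∧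
      ∀ x, T n x - l • x ∈ Y'.1 := by
    rintro n ⟨Y, h1, h2, h3, hWY⟩
    obtain ⟨Y', l, h4, h5, h6, h7, h8⟩ := estep hbad C (T n) (hTC n) Y (by
      rintro S (hS | ⟨m, rfl⟩) x
      · rw [hS n x, sub_self]
        exact Y.zero_mem
      · exact hWY (hWcomm m n x)) h1 h2 h3
    exact ⟨⟨Y', h5, h6, h7, hWY.trans h4⟩, l, h4, h8⟩
  choose f l hf using hstep'
  have hbot : P W := by
    refine ⟨hWc, hWinf, ?_, le_rfl⟩
    rintro S (hS | ⟨m, rfl⟩) x hx
    · exact hWS S hS x hx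
    · exact hWT m x hx
  let Z : ℕ → {Y // P Y} := fun n => Nat.rec ⟨W, hbot⟩ (fun n Y => f n Y) n
  have hZ : ∀ n, Z (n + 1) = f n (Z n) := fun n => rfl
  have hmono : Monotone fun n => (Z n).1 := by
    refine monotone_nat_of_le_succ fun n => ?_
    show (Z n).1 ≤ (Z (n + 1)).1
    rw [hZ]
    exact (hf n (Z n)).1
  set Y : Submodule ℂ X := (⨆ n, (Z n).1).topologicalClosure with hY
  have hYc : IsClosed (Y : Set X) := Submodule.isClosed_topologicalClosure _
  have hle : ∀ n, (Z n).1 ≤ Y := fun n =>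
    (le_iSup (fun n => (Z n).1) n).trans (Submodule.le_topologicalClosure _)
  have hsc : ∀ n x, T n x - l n (Z n) • x ∈ Y := by
    intro n x
    refine hle (n + 1) ?_
    rw [hZ]
    exact (hf n (Z n)).2 x
  have hYinv : ∀ S : X →L[ℂ] X, (∀ n x, S (T n x) = T n (S x)) → ∀ x ∈ Y, S x ∈ Y := by
    intro S hS x hx
    have h1 : x ∈ closure ((⨆ n, (Z n).1 : Submodule ℂ X) : Set X) := hx
    have h2 : S x ∈ closure ((⨆ n, (Z n).1 : Submodule ℂ X) : Set X) := by
      refine map_mem_closure S.continuous h1 ?_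
      intro w hw
      obtain ⟨n, hn⟩ := (Submodule.mem_iSup_of_directed _ hmono.directed_le).1 hw
      exact Submodule.mem_iSup_of_mem n ((Z n).2.2.2.1 S (Or.inl hS) w hn)
    exact h2
  refine ⟨Y, fun n => l n (Z n), hYc, ?_, hsc, hYinv, ?_⟩
  · intro hfin
    apply hbad
    refine sq_of_finite_codim Y hYc hfin ?_
    refine sq_of_increasing (fun n => (Z n).1.comap Y.subtype) ?_ ?_ ?_ ?_
    · intro m n hmn
      exact Submodule.comap_mono (hmono hmn)
    · intro n
      exact (Z n).2.1.preimage (by fun_prop : Continuous (Y.subtype : Y → X))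
    · intro n hn
      apply (Z n).2.2.1
      have h1 : Y ≤ (Z n).1 := by
        intro y hy
        have : (⟨y, hy⟩ : Y) ∈ (Z n).1.comap Y.subtype := by rw [hn]; trivial
        exact this
      have hsurj : Function.Surjective (Submodule.mapQ Y (Z n).1 LinearMap.id h1) := by
        intro z
        obtain ⟨x, rfl⟩ := Submodule.mkQ_surjective _ z
        exact ⟨Y.mkQ x, by simp⟩
      exact Module.Finite.of_surjective _ hsurj
    · rw [eq_top_iff]
      intro y _
      have h1 : (y : X) ∈ closure ((⨆ n, (Z n).1 : Submodule ℂ X) : Set X) := y.2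
      have h2 : y ∈ closure ((⨆ n, (Z n).1.comap Y.subtype : Submodule ℂ Y) : Set Y) := by
        rw [Metric.mem_closure_iff] at h1 ⊢
        intro ε hε
        obtain ⟨w, hw, hwd⟩ := h1 ε hε
        obtain ⟨n, hn⟩ := (Submodule.mem_iSup_of_directed _ hmono.directed_le).1 hw
        refine ⟨⟨w, hle n hn⟩, ?_, hwd⟩
        exact Submodule.mem_iSup_of_mem n hn
      exact h2
  · intro S hS
    have : IsClosed (Y : Set X) := hYc
    have hker : ∀ x ∈ Y, S x ∈ Y := by
      intro x hx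
      have h1 : Submodule.span ℂ (Set.range fun n => T n x) ≤ Y := by
        rw [Submodule.span_le]
        rintro _ ⟨n, rfl⟩
        have := Y.add_mem (hsc n x) (Y.smul_mem (l n (Z n)) hx)
        rwa [sub_add_cancel] at this
      exact Submodule.topologicalClosure_minimal _ h1 hYc (hS x)
    have hev : ∀ x, ∃ c : ℂ, S x - c • x ∈ Y := by
      intro x
      set L : Submodule ℂ (X ⧸ Y) := Submodule.span ℂ {Y.mkQ x} with hL
      have hLc : IsClosed (L : Set (X ⧸ Y)) := Submodule.closed_of_finiteDimensional L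
      have h1 : Submodule.span ℂ (Set.range fun n => T n x) ≤ L.comap Y.mkQ := by
        rw [Submodule.span_le]
        rintro _ ⟨n, rfl⟩
        show Y.mkQ (T n x) ∈ L
        have h2 : Y.mkQ (T n x) = l n (Z n) • Y.mkQ x := by
          rw [← sub_eq_zero, ← map_smul, ← map_sub]
          exact (Submodule.Quotient.mk_eq_zero Y).2 (hsc n x)
        rw [h2]
        exact L.smul_mem _ (Submodule.mem_span_singleton_self _)
      have h3 : S x ∈ L.comap Y.mkQ :=
        Submodule.topologicalClosure_minimal _ h1 (hLc.preimage (continuous_mkQ Y)) (hS x)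
      obtain ⟨c, hc⟩ := Submodule.mem_span_singleton.1 h3
      refine ⟨c, ?_⟩
      have h4 : Y.mkQ (S x - c • x) = 0 := by rw [map_sub, map_smul, hc, sub_self]
      exact (Submodule.Quotient.mk_eq_zero Y).1 h4
    obtain ⟨c, hc⟩ := scalar_of_eigen (Submodule.mapQ Y Y (S : X →ₗ[ℂ] X) hker) (by
      intro q
      obtain ⟨x, rfl⟩ := Submodule.mkQ_surjective Y q
      obtain ⟨c, hc⟩ := hev x
      refine ⟨c, ?_⟩
      rw [← sub_eq_zero]
      exact (Submodule.Quotient.mk_eq_zero Y).2 hc)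
    refine ⟨c, fun x => ?_⟩
    have := hc (Y.mkQ x)
    rw [← sub_eq_zero] at this
    exact (Submodule.Quotient.mk_eq_zero Y).1 this


theorem commuting_ess (hX : ¬ FiniteDimensional ℂ X) (hbad : ¬ HasSepQuot ℂ X)
    (T : ℕ → X →L[ℂ] X)
    (hT : ∀ i j, TopologicalSpace.IsSeparable (Set.range (T i * T j - T j * T i))) :
    ∃ (Y : Submodule ℂ X) (l : ℕ → ℂ), IsClosed (Y : Set X) ∧ ¬ FiniteDimensional ℂ (X ⧸ Y) ∧
      (∀ n x, T n x - l n • x ∈ Y) ∧
      ∀ S : X →L[ℂ] X, (∀ n, S * T n = T n * S) → ∀ x ∈ Y, S x ∈ Y := by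
  obtain ⟨Y, l, h1, h2, h3, h4, -⟩ := main_ess hX (fun h => hbad (hasSepQuot_of_SQ h)) T hT
  exact ⟨Y, l, h1, h2, h3, fun S hS => h4 S fun n x =>
    congrArg (fun R : X →L[ℂ] X => R x) (hS n)⟩

end Vale.Agent.P129s
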