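import Vale.Agent.P129s.Single

/-!
# P129: commuting sequences of operators on a space without separable quotients, with invariance
-/

open Submodule

namespace Vale.Agent.P129s

open Vale.Agent.P129

variable {X : Type*} [NormedAddCommGroup X] [NormedSpace ℂ X] [CompleteSpace X]

/-- one step -/
theorem hstep (hbad : ¬ SQ ℂ X) (C : Set (X →L[ℂ] X)) (T : X →L[ℂ] X) (hTC : T ∈ C)
    (hT : ∀ S ∈ C, ∀ x, S (T x) = T (S x)) (Y : Submodule ℂ X)
    (hY : IsClosed (Y : Set X)) (hinf : ¬ FiniteDimensional ℂ (X ⧸ Y))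
    (hinv : ∀ S ∈ C, ∀ x ∈ Y, S x ∈ Y) :
    ∃ (Y' : Submodule ℂ X) (l : ℂ), Y ≤ Y' ∧ IsClosed (Y' : Set X) ∧
      ¬ FiniteDimensional ℂ (X ⧸ Y') ∧ (∀ S ∈ C, ∀ x ∈ Y', S x ∈ Y') ∧
      ∀ x, T x - l • x ∈ Y' := by
  have : IsClosed (Y : Set X) := hY
  have hbadQ : ¬ SQ ℂ (X ⧸ Y) := fun h => hbad (sq_of_quotient Y h)
  -- the induced operators
  have hker : ∀ S ∈ C, Y ≤ LinearMap.ker ((Y.mkQL.comp S : X →L[ℂ] X ⧸ Y) : X →ₗ[ℂ] X ⧸ Y) := by
    intro S hS x hx
    rw [LinearMap.mem_ker]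
    simpa using hinv S hS x hx
  let TQ : ∀ S, S ∈ C → (X ⧸ Y) →L[ℂ] (X ⧸ Y) := fun S hS => Y.liftQL (Y.mkQL.comp S) (hker S hS)
  have hTQm : ∀ S (hS : S ∈ C) x, TQ S hS (Y.mkQ x) = Y.mkQ (S x) := by
    intro S hS x
    simp [TQ]
  obtain ⟨l, hl⟩ := single hinf hbadQ (TQ T hTC)
  set R : (X ⧸ Y) →L[ℂ] (X ⧸ Y) := TQ T hTC - l • ContinuousLinearMap.id ℂ (X ⧸ Y) with hR
  set D : Submodule ℂ (X ⧸ Y) := (LinearMap.range (R : (X ⧸ Y) →ₗ[ℂ] (X ⧸ Y))).topologicalClosure
    with hD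
  have hDc : IsClosed (D : Set (X ⧸ Y)) := Submodule.isClosed_topologicalClosure _
  refine ⟨D.comap Y.mkQ, l, ?_, hDc.preimage (continuous_mkQ Y), ?_, ?_, ?_⟩
  · intro x hx
    rw [Submodule.mem_comap]
    have : Y.mkQ x = 0 := by simpa using hx
    rw [this]
    exact D.zero_mem
  · intro hfin
    apply hl
    have hsurj : Function.Surjective (Submodule.mapQ (D.comap Y.mkQ) D Y.mkQ le_rfl) := by
      intro z
      obtain ⟨y, rfl⟩ := Submodule.mkQ_surjective D z
      obtain ⟨x, rfl⟩ := Submodule.mkQ_surjective Y y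
      exact ⟨(D.comap Y.mkQ).mkQ x, by simp⟩
    exact Module.Finite.of_surjective _ hsurj
  · intro S hS x hx
    rw [Submodule.mem_comap] at hx ⊢
    rw [← hTQm S hS]
    have h1 : Y.mkQ x ∈ closure ((LinearMap.range (R : (X ⧸ Y) →ₗ[ℂ] (X ⧸ Y)) :
      Submodule ℂ (X ⧸ Y)) : Set (X ⧸ Y)) := hx
    have h2 : TQ S hS (Y.mkQ x) ∈ closure ((LinearMap.range (R : (X ⧸ Y) →ₗ[ℂ] (X ⧸ Y)) :
      Submodule ℂ (X ⧸ Y)) : Set (X ⧸ Y)) := by
      refine map_mem_closure (TQ S hS).continuous h1 ?_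
      rintro _ ⟨z, rfl⟩
      refine ⟨TQ S hS z, ?_⟩
      obtain ⟨w, rfl⟩ := Submodule.mkQ_surjective Y z
      simp only [ContinuousLinearMap.coe_coe, hR, sub_apply,
        smul_apply, ContinuousLinearMap.id_apply, map_sub, map_smul]
      simp only [hTQm, hT S hS]
    exact h2
  · intro x
    rw [Submodule.mem_comap, map_sub, map_smul, ← hTQm T hTC]
    exact Submodule.le_topologicalClosure _ ⟨Y.mkQ x, by simp [hR]⟩

/-- An operator for which all vectors are eigenvectors is a scalar. -/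
theorem scalar_of_eigen {Q : Type*} [AddCommGroup Q] [Module ℂ Q] (S : Q →ₗ[ℂ] Q)
    (h : ∀ q, ∃ c : ℂ, S q = c • q) : ∃ c : ℂ, ∀ q, S q = c • q := by
  by_cases hne : ∃ q : Q, q ≠ 0
  · obtain ⟨q, hq⟩ := hne
    obtain ⟨c, hc⟩ := h q
    refine ⟨c, fun r => ?_⟩
    obtain ⟨d, hd⟩ := h r
    obtain ⟨e, he⟩ := h (q + r)
    rw [map_add, hc, hd, smul_add] at he
    have h1 : (c - e) • q = (e - d) • r := by
      rw [sub_smul, sub_smul, sub_eq_sub_iff_add_eq_add, he, add_comm]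
    by_cases hcd : e = d
    · rw [hcd, sub_self, zero_smul] at h1
      have h2 : c - d = 0 := (smul_eq_zero.1 h1).resolve_right hq
      rw [hd, sub_eq_zero.1 h2]
    · have h3 : e - d ≠ 0 := sub_ne_zero.2 hcd
      have h4 : r = ((e - d)⁻¹ * (c - e)) • q := by
        rw [mul_smul, h1, smul_smul, inv_mul_cancel₀ h3, one_smul]
      rw [h4, map_smul, hc, smul_comm]
  · push Not at hne
    exact ⟨0, fun q => by rw [hne q, map_zero, smul_zero]⟩

/-- the strong form -/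
theorem main_hyper (hX : ¬ FiniteDimensional ℂ X) (hbad : ¬ SQ ℂ X) (T : ℕ → X →L[ℂ] X)
    (hT : ∀ i j x, T i (T j x) = T j (T i x)) :
    ∃ (Y : Submodule ℂ X) (l : ℕ → ℂ), IsClosed (Y : Set X) ∧ ¬ FiniteDimensional ℂ (X ⧸ Y) ∧
      (∀ n x, T n x - l n • x ∈ Y) ∧
      (∀ S : X →L[ℂ] X, (∀ n x, S (T n x) = T n (S x)) → ∀ x ∈ Y, S x ∈ Y) ∧
      (∀ S : X →L[ℂ] X,
        (∀ x, S x ∈ (Submodule.span ℂ (Set.range fun n => T n x)).topologicalClosure) →
        ∃ c : ℂ, ∀ x, S x - c • x ∈ Y) := by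
  classical
  set C : Set (X →L[ℂ] X) := {S | ∀ n x, S (T n x) = T n (S x)} with hC
  have hTC : ∀ n, T n ∈ C := fun n m x => hT n m x
  let P : Submodule ℂ X → Prop := fun Y => IsClosed (Y : Set X) ∧ ¬ FiniteDimensional ℂ (X ⧸ Y) ∧
    ∀ S ∈ C, ∀ x ∈ Y, S x ∈ Y
  have hstep' : ∀ (n : ℕ) (Y : {Y // P Y}), ∃ (Y' : {Y // P Y}) (l : ℂ), Y.1 ≤ Y'.1 ∧
      ∀ x, T n x - l • x ∈ Y'.1 := by
    rintro n ⟨Y, h1, h2, h3⟩
    obtain ⟨Y', l, h4, h5, h6, h7, h8⟩ := hstep hbad C (T n) (hTC n) (fun S hS x => hS n x) Y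
      h1 h2 h3
    exact ⟨⟨Y', h5, h6, h7⟩, l, h4, h8⟩
  choose f l hf using hstep'
  have hbot : P ⊥ := by
    refine ⟨isClosed_singleton, ?_, ?_⟩
    · intro h
      exact hX (Module.Finite.equiv (Submodule.quotEquivOfEqBot (⊥ : Submodule ℂ X) rfl))
    · intro S _ x hx
      rw [Submodule.mem_bot] at hx ⊢
      rw [hx, map_zero]
  let Z : ℕ → {Y // P Y} := fun n => Nat.rec ⟨⊥, hbot⟩ (fun n Y => f n Y) n
  have hZ : ∀ n, Z (n + 1) = f n (Z n) := fun n => rfl
  have hmono : Monotone fun n => (Z n).1 := by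
    refine monotone_nat_of_le_succ fun n => ?_
    show (Z n).1 ≤ (Z (n + 1)).1
    rw [hZ]
    exact (hf n (Z n)).1
  set Y : Submodule ℂ X := (⨆ n, (Z n).1).topologicalClosure with hY
  have hYc : IsClosed (Y : Set X) := Submodule.isClosed_topologicalClosure _
  have hle : ∀ n, (Z n).1 ≤ Y := fun n =>
    (le_iSup (fun n => (Z n).1) n).trans (Submodule.le_topologicalClosure _)
  have hsc : ∀ n x, T n x - l n (Z n) • x ∈ Y := by
    intro n x
    refine hle (n + 1) ?_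
    rw [hZ]
    exact (hf n (Z n)).2 x
  have hYinv : ∀ S : X →L[ℂ] X, (∀ n x, S (T n x) = T n (S x)) → ∀ x ∈ Y, S x ∈ Y := by
    intro S hS x hx
    have h1 : x ∈ closure ((⨆ n, (Z n).1 : Submodule ℂ X) : Set X) := hx
    have h2 : S x ∈ closure ((⨆ n, (Z n).1 : Submodule ℂ X) : Set X) := by
      refine map_mem_closure S.continuous h1 ?_
      intro w hw
      obtain ⟨n, hn⟩ := (Submodule.mem_iSup_of_directed _ hmono.directed_le).1 hw
      exact Submodule.mem_iSup_of_mem n ((Z n).2.2.2 S hS w hn)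
    exact h2
  refine ⟨Y, fun n => l n (Z n), hYc, ?_, hsc, hYinv, ?_⟩
  · intro hfin
    apply hbad
    refine sq_of_finite_codim Y hYc hfin ?_
    refine sq_of_increasing (fun n => (Z n).1.comap Y.subtype) ?_ ?_ ?_ ?_
    · intro m n hmn
      exact Submodule.comap_mono (hmono hmn)
    · intro n
      exact (Z n).2.1.preimage (by fun_prop : Continuous (Y.subtype : Y → X))
    · intro n hn
      apply (Z n).2.2.1
      have h1 : Y ≤ (Z n).1 := by
        intro y hy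
        have : (⟨y, hy⟩ : Y) ∈ (Z n).1.comap Y.subtype := by rw [hn]; trivial
        exact this
      have hsurj : Function.Surjective (Submodule.mapQ Y (Z n).1 LinearMap.id h1) := by
        intro z
        obtain ⟨x, rfl⟩ := Submodule.mkQ_surjective _ z
        exact ⟨Y.mkQ x, by simp⟩
      exact Module.Finite.of_surjective _ hsurj
    · rw [eq_top_iff]
      intro y _
      have h1 : (y : X) ∈ closure ((⨆ n, (Z n).1 : Submodule ℂ X) : Set X) := y.2
      have h2 : y ∈ closure ((⨆ n, (Z n).1.comap Y.subtype : Submodule ℂ Y) : Set Y) := by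
        rw [Metric.mem_closure_iff] at h1 ⊢
        intro ε hε
        obtain ⟨w, hw, hwd⟩ := h1 ε hε
        obtain ⟨n, hn⟩ := (Submodule.mem_iSup_of_directed _ hmono.directed_le).1 hw
        refine ⟨⟨w, hle n hn⟩, ?_, hwd⟩
        exact Submodule.mem_iSup_of_mem n hn
      exact h2
  · intro S hS
    have : IsClosed (Y : Set X) := hYc
    have hker : ∀ x ∈ Y, S x ∈ Y := by
      intro x hx
      have h1 : Submodule.span ℂ (Set.range fun n => T n x) ≤ Y := by
        rw [Submodule.span_le]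
        rintro _ ⟨n, rfl⟩
        have := Y.add_mem (hsc n x) (Y.smul_mem (l n (Z n)) hx)
        rwa [sub_add_cancel] at this
      exact Submodule.topologicalClosure_minimal _ h1 hYc (hS x)
    have hev : ∀ x, ∃ c : ℂ, S x - c • x ∈ Y := by
      intro x
      set L : Submodule ℂ (X ⧸ Y) := Submodule.span ℂ {Y.mkQ x} with hL
      have hLc : IsClosed (L : Set (X ⧸ Y)) := Submodule.closed_of_finiteDimensional L
      have h1 : Submodule.span ℂ (Set.range fun n => T n x) ≤ L.comap Y.mkQ := by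
        rw [Submodule.span_le]
        rintro _ ⟨n, rfl⟩
        show Y.mkQ (T n x) ∈ L
        have h2 : Y.mkQ (T n x) = l n (Z n) • Y.mkQ x := by
          rw [← sub_eq_zero, ← map_smul, ← map_sub]
          exact (Submodule.Quotient.mk_eq_zero Y).2 (hsc n x)
        rw [h2]
        exact L.smul_mem _ (Submodule.mem_span_singleton_self _)
      have h3 : S x ∈ L.comap Y.mkQ :=
        Submodule.topologicalClosure_minimal _ h1 (hLc.preimage (continuous_mkQ Y)) (hS x)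
      obtain ⟨c, hc⟩ := Submodule.mem_span_singleton.1 h3
      refine ⟨c, ?_⟩
      have h4 : Y.mkQ (S x - c • x) = 0 := by rw [map_sub, map_smul, hc, sub_self]
      exact (Submodule.Quotient.mk_eq_zero Y).1 h4
    obtain ⟨c, hc⟩ := scalar_of_eigen (Submodule.mapQ Y Y (S : X →ₗ[ℂ] X) hker) (by
      intro q
      obtain ⟨x, rfl⟩ := Submodule.mkQ_surjective Y q
      obtain ⟨c, hc⟩ := hev x
      refine ⟨c, ?_⟩
      rw [← sub_eq_zero]
      exact (Submodule.Quotient.mk_eq_zero Y).2 hc)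
    refine ⟨c, fun x => ?_⟩
    have := hc (Y.mkQ x)
    rw [← sub_eq_zero] at this
    exact (Submodule.Quotient.mk_eq_zero Y).1 this

end Vale.Agent.P129s
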