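import Vale.Agent.P129.Inc
import Vale.Agent.P129s.SQ

/-!
# P129, row R2
-/

namespace Vale.Agent.P129s

open Vale.Agent.P129

variable {𝕜 X : Type*} [RCLike 𝕜] [NormedAddCommGroup X] [NormedSpace 𝕜 X]

/-- R2 -/
theorem sq_of_increasing (E : ℕ → Submodule 𝕜 X) (hmono : Monotone E)
    (hcl : ∀ n, IsClosed (E n : Set X)) (hne : ∀ n, E n ≠ ⊤)
    (hd : (⨆ n, E n).topologicalClosure = ⊤) : SQ 𝕜 X := by
  obtain ⟨M, h1, h2, y, h3⟩ := Inc.main E hmono hcl hne hd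
  exact ⟨M, Set.range y, h1, Set.countable_range y, by rwa [sup_comm] at h3, h2⟩

end Vale.Agent.P129s
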