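import Vale.Agent.P129s.Single

/-!
# P129: commuting sequences of operators on a space without separable quotients
-/

open Submodule

namespace Vale.Agent.P129s

open Vale.Agent.P129

variable {X : Type*} [NormedAddCommGroup X] [NormedSpace ℂ X] [CompleteSpace X]

/-- R9 -/
theorem step (hbad : ¬ SQ ℂ X) (T : ℕ → X →L[ℂ] X)
    (hT : ∀ i j x, T i (T j x) = T j (T i x)) (n : ℕ) (Y : Submodule ℂ X)
    (hY : IsClosed (Y : Set X)) (hinf : ¬ FiniteDimensional ℂ (X ⧸ Y))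
    (hinv : ∀ k, ∀ x ∈ Y, T k x ∈ Y) :
    ∃ (Y' : Submodule ℂ X) (l : ℂ), Y ≤ Y' ∧ IsClosed (Y' : Set X) ∧
      ¬ FiniteDimensional ℂ (X ⧸ Y') ∧ (∀ k, ∀ x ∈ Y', T k x ∈ Y') ∧
      ∀ x, T n x - l • x ∈ Y' := by
  have : IsClosed (Y : Set X) := hY
  have hbadQ : ¬ SQ ℂ (X ⧸ Y) := fun h => hbad (sq_of_quotient Y h)
  -- the induced operators
  have hker : ∀ k, Y ≤ LinearMap.ker ((Y.mkQL.comp (T k) : X →L[ℂ] X ⧸ Y) : X →ₗ[ℂ] X ⧸ Y) := by
    intro k x hx
    rw [LinearMap.mem_ker]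
    simpa using hinv k x hx
  set TQ : ℕ → (X ⧸ Y) →L[ℂ] (X ⧸ Y) := fun k => Y.liftQL (Y.mkQL.comp (T k)) (hker k) with hTQ
  have hTQm : ∀ k x, TQ k (Y.mkQ x) = Y.mkQ (T k x) := by
    intro k x
    simp [hTQ]
  obtain ⟨l, hl⟩ := single hinf hbadQ (TQ n)
  set R : (X ⧸ Y) →L[ℂ] (X ⧸ Y) := TQ n - l • ContinuousLinearMap.id ℂ (X ⧸ Y) with hR
  set C : Submodule ℂ (X ⧸ Y) := (LinearMap.range (R : (X ⧸ Y) →ₗ[ℂ] (X ⧸ Y))).topologicalClosure
    with hC
  have hCc : IsClosed (C : Set (X ⧸ Y)) := Submodule.isClosed_topologicalClosure _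
  refine ⟨C.comap Y.mkQ, l, ?_, hCc.preimage (continuous_mkQ Y), ?_, ?_, ?_⟩
  · intro x hx
    rw [Submodule.mem_comap]
    have : Y.mkQ x = 0 := by simpa using hx
    rw [this]
    exact C.zero_mem
  · intro hfin
    apply hl
    have hsurj : Function.Surjective (Submodule.mapQ (C.comap Y.mkQ) C Y.mkQ le_rfl) := by
      intro z
      obtain ⟨y, rfl⟩ := Submodule.mkQ_surjective C z
      obtain ⟨x, rfl⟩ := Submodule.mkQ_surjective Y y
      exact ⟨(C.comap Y.mkQ).mkQ x, by simp⟩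
    exact Module.Finite.of_surjective _ hsurj
  · intro k x hx
    rw [Submodule.mem_comap] at hx ⊢
    rw [← hTQm]
    have h1 : Y.mkQ x ∈ closure ((LinearMap.range (R : (X ⧸ Y) →ₗ[ℂ] (X ⧸ Y)) :
      Submodule ℂ (X ⧸ Y)) : Set (X ⧸ Y)) := hx
    have h2 : TQ k (Y.mkQ x) ∈ closure ((LinearMap.range (R : (X ⧸ Y) →ₗ[ℂ] (X ⧸ Y)) :
      Submodule ℂ (X ⧸ Y)) : Set (X ⧸ Y)) := by
      refine map_mem_closure (TQ k).continuous h1 ?_
      rintro _ ⟨z, rfl⟩
      refine ⟨TQ k z, ?_⟩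
      obtain ⟨w, rfl⟩ := Submodule.mkQ_surjective Y z
      simp only [ContinuousLinearMap.coe_coe, hR, sub_apply,
        smul_apply, ContinuousLinearMap.id_apply, map_sub, map_smul]
      rw [hTQm, hTQm, hTQm, hTQm, hT]
    exact h2
  · intro x
    rw [Submodule.mem_comap, map_sub, map_smul, ← hTQm]
    exact Submodule.le_topologicalClosure _ ⟨Y.mkQ x, by simp [hR]⟩

/-- R10 -/
theorem main (hX : ¬ FiniteDimensional ℂ X) (hbad : ¬ SQ ℂ X) (T : ℕ → X →L[ℂ] X)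
    (hT : ∀ i j x, T i (T j x) = T j (T i x)) :
    ∃ (Y : Submodule ℂ X) (l : ℕ → ℂ), IsClosed (Y : Set X) ∧ ¬ FiniteDimensional ℂ (X ⧸ Y) ∧
      (∀ n x, T n x - l n • x ∈ Y) := by
  classical
  let P : Submodule ℂ X → Prop := fun Y => IsClosed (Y : Set X) ∧ ¬ FiniteDimensional ℂ (X ⧸ Y) ∧
    ∀ k, ∀ x ∈ Y, T k x ∈ Y
  have hstep : ∀ (n : ℕ) (Y : {Y // P Y}), ∃ (Y' : {Y // P Y}) (l : ℂ), Y.1 ≤ Y'.1 ∧
      ∀ x, T n x - l • x ∈ Y'.1 := by
    rintro n ⟨Y, h1, h2, h3⟩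
    obtain ⟨Y', l, h4, h5, h6, h7, h8⟩ := step hbad T hT n Y h1 h2 h3
    exact ⟨⟨Y', h5, h6, h7⟩, l, h4, h8⟩
  choose f l hf using hstep
  have hbot : P ⊥ := by
    refine ⟨isClosed_singleton, ?_, ?_⟩
    · intro h
      exact hX (Module.Finite.equiv (Submodule.quotEquivOfEqBot (⊥ : Submodule ℂ X) rfl))
    · intro k x hx
      rw [Submodule.mem_bot] at hx ⊢
      rw [hx, map_zero]
  let Z : ℕ → {Y // P Y} := fun n => Nat.rec ⟨⊥, hbot⟩ (fun n Y => f n Y) n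
  have hZ : ∀ n, Z (n + 1) = f n (Z n) := fun n => rfl
  have hmono : Monotone fun n => (Z n).1 := by
    refine monotone_nat_of_le_succ fun n => ?_
    show (Z n).1 ≤ (Z (n + 1)).1
    rw [hZ]
    exact (hf n (Z n)).1
  set Y : Submodule ℂ X := (⨆ n, (Z n).1).topologicalClosure with hY
  have hYc : IsClosed (Y : Set X) := Submodule.isClosed_topologicalClosure _
  have hle : ∀ n, (Z n).1 ≤ Y := fun n =>
    (le_iSup (fun n => (Z n).1) n).trans (Submodule.le_topologicalClosure _)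
  refine ⟨Y, fun n => l n (Z n), hYc, ?_, ?_⟩
  · intro hfin
    apply hbad
    refine sq_of_finite_codim Y hYc hfin ?_
    refine sq_of_increasing (fun n => (Z n).1.comap Y.subtype) ?_ ?_ ?_ ?_
    · intro m n hmn
      exact Submodule.comap_mono (hmono hmn)
    · intro n
      exact (Z n).2.1.preimage (by fun_prop : Continuous (Y.subtype : Y → X))
    · intro n hn
      apply (Z n).2.2.1
      have h1 : Y ≤ (Z n).1 := by
        intro y hy
        have : (⟨y, hy⟩ : Y) ∈ (Z n).1.comap Y.subtype := by rw [hn]; trivial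
        exact this
      have hsurj : Function.Surjective (Submodule.mapQ Y (Z n).1 LinearMap.id h1) := by
        intro z
        obtain ⟨x, rfl⟩ := Submodule.mkQ_surjective _ z
        exact ⟨Y.mkQ x, by simp⟩
      exact Module.Finite.of_surjective _ hsurj
    · rw [eq_top_iff]
      intro y _
      have h1 : (y : X) ∈ closure ((⨆ n, (Z n).1 : Submodule ℂ X) : Set X) := y.2
      have h2 : y ∈ closure ((⨆ n, (Z n).1.comap Y.subtype : Submodule ℂ Y) : Set Y) := by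
        rw [Metric.mem_closure_iff] at h1 ⊢
        intro ε hε
        obtain ⟨w, hw, hwd⟩ := h1 ε hε
        obtain ⟨n, hn⟩ := (Submodule.mem_iSup_of_directed _ hmono.directed_le).1 hw
        refine ⟨⟨w, hle n hn⟩, ?_, hwd⟩
        exact Submodule.mem_iSup_of_mem n hn
      exact h2
  · intro n x
    refine hle (n + 1) ?_
    rw [hZ]
    exact (hf n (Z n)).2 x

end Vale.Agent.P129s
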