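import Mathlib

/-! P129, row R7: if all `T - l` have finite corank, the space is separable. -/

namespace Vale.Agent.P129s.R7

open Metric Set

variable {X : Type*} [NormedAddCommGroup X] [NormedSpace ℂ X] [CompleteSpace X]

/-- surjectivity of `(x, f) ↦ (T - l) x + f` is an open condition on `l` -/
theorem open_cond (T : X →L[ℂ] X) (F : Submodule ℂ X) [FiniteDimensional ℂ F] (l0 : ℂ)
    (h : ∀ y : X, ∃ x : X, ∃ f ∈ F, T x - l0 • x + f = y) :
    ∃ ε > 0, ∀ l ∈ ball l0 ε, ∀ y : X, ∃ x : X, ∃ f ∈ F, T x - l • x + f = y := by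
  let Φ : ℂ → (X × F) →L[ℂ] X := fun l =>
    (T - l • ContinuousLinearMap.id ℂ X).comp (ContinuousLinearMap.fst ℂ X F) +
      F.subtypeL.comp (ContinuousLinearMap.snd ℂ X F)
  have hΦ : ∀ l x f, Φ l (x, f) = T x - l • x + f := fun l x f => rfl
  have hs : (Φ l0).range = ⊤ := by
    rw [LinearMap.range_eq_top]
    intro y
    obtain ⟨x, f, hf, hy⟩ := h y
    exact ⟨(x, ⟨f, hf⟩), hy⟩
  obtain ⟨g, hg⟩ := ContinuousLinearMap.exists_nonlinearRightInverse_of_surjective (Φ l0) hs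
  have hg' : (0 : ℝ) < (g.nnnorm : ℝ)⁻¹ := inv_pos.2 (by exact_mod_cast hg)
  refine ⟨(g.nnnorm : ℝ)⁻¹ / 2, by linarith, ?_⟩
  intro l hl y
  rw [mem_ball, dist_eq_norm] at hl
  have happ : ApproximatesLinearOn (Φ l) (Φ l0) univ (‖l - l0‖₊) := by
    intro a _ b _
    have e : Φ l a - Φ l b - Φ l0 (a - b) = -((l - l0) • (a - b).1) := by
      obtain ⟨a1, a2⟩ := a
      obtain ⟨b1, b2⟩ := b
      rw [map_sub, hΦ, hΦ, hΦ, hΦ]
      simp only [Prod.fst_sub]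
      module
    rw [e, norm_neg, norm_smul, coe_nnnorm]
    exact mul_le_mul_of_nonneg_left (norm_fst_le _) (norm_nonneg _)
  have key := fun (ε : ℝ) (h0 : 0 ≤ ε) =>
    happ.surjOn_closedBall_of_nonlinearRightInverse g (b := 0) h0 (subset_univ _)
  have hpos : 0 < (g.nnnorm : ℝ)⁻¹ - (‖l - l0‖₊ : ℝ) := by
    rw [coe_nnnorm]
    linarith
  have hy : y ∈ closedBall (Φ l 0)
      (((g.nnnorm : ℝ)⁻¹ - (‖l - l0‖₊ : ℝ)) * (‖y‖ / ((g.nnnorm : ℝ)⁻¹ - (‖l - l0‖₊ : ℝ)))) := by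
    rw [map_zero, mem_closedBall, dist_zero_right, mul_div_cancel₀ _ hpos.ne']
  obtain ⟨⟨x, f⟩, -, hx⟩ := key _ (div_nonneg (norm_nonneg y) hpos.le) hy
  exact ⟨x, f, f.2, hx⟩

/-- for large `l` the operator `T - l` is onto -/
theorem large (T : X →L[ℂ] X) (l : ℂ) (hl : ‖T‖ < ‖l‖) (y : X) : ∃ x : X, T x - l • x = y := by
  have hl0 : l ≠ 0 := by
    intro h
    rw [h, norm_zero] at hl
    exact absurd hl (not_lt.2 (norm_nonneg _))
  have h1 : ‖l⁻¹ • T‖ < 1 := by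
    rw [norm_smul, norm_inv, inv_mul_lt_one₀ (norm_pos_iff.2 hl0)]
    exact hl
  obtain ⟨u, hu⟩ := isUnit_one_sub_of_norm_lt_one h1
  set A : X →L[ℂ] X := (u : X →L[ℂ] X) with hA
  set B : X →L[ℂ] X := ((u⁻¹ : (X →L[ℂ] X)ˣ) : X →L[ℂ] X) with hB
  have h2 : ∀ z : X, A (B z) = z := by
    intro z
    have h3 : (A * B) z = z := by
      rw [hA, hB, Units.mul_inv]
      rfl
    exact h3
  refine ⟨B (-(l⁻¹ • y)), ?_⟩
  have h3 := h2 (-(l⁻¹ • y))
  set x := B (-(l⁻¹ • y)) with hx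
  rw [hu] at h3
  have h4 : x - l⁻¹ • T x = -(l⁻¹ • y) := h3
  have h5 : l • (x - l⁻¹ • T x) = l • (-(l⁻¹ • y)) := by rw [h4]
  rw [smul_sub, smul_smul, mul_inv_cancel₀ hl0, one_smul, smul_neg, smul_smul,
    mul_inv_cancel₀ hl0, one_smul] at h5
  rw [← neg_sub, h5, neg_neg]

/-- one finite-dimensional space for all `l` -/
theorem one_space (T : X →L[ℂ] X)
    (h : ∀ l : ℂ, ∃ F : Submodule ℂ X, FiniteDimensional ℂ F ∧
      ∀ y : X, ∃ x : X, ∃ f ∈ F, T x - l • x + f = y) :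
    ∃ F : Submodule ℂ X, FiniteDimensional ℂ F ∧
      ∀ l : ℂ, ∀ y : X, ∃ x : X, ∃ f ∈ F, T x - l • x + f = y := by
  classical
  choose F hF hF2 using h
  have h2 : ∀ l0 : ℂ, ∃ ε > 0, ∀ l ∈ ball l0 ε, ∀ y : X, ∃ x : X, ∃ f ∈ F l0,
      T x - l • x + f = y := fun l0 => by
    have := hF l0
    exact open_cond T (F l0) l0 (hF2 l0)
  choose ε hε h3 using h2
  obtain ⟨t, ht⟩ := (isCompact_closedBall (0 : ℂ) ‖T‖).elim_nhds_subcover
    (fun l => ball l (ε l)) (fun l _ => ball_mem_nhds l (hε l))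
  refine ⟨t.sup F, ?_, ?_⟩
  · have := hF
    infer_instance
  · intro l y
    by_cases hl : ‖T‖ < ‖l‖
    · obtain ⟨x, hx⟩ := large T l hl y
      exact ⟨x, 0, Submodule.zero_mem _, by rw [add_zero, hx]⟩
    · have hl' : l ∈ closedBall (0 : ℂ) ‖T‖ := by
        rw [mem_closedBall, dist_zero_right]
        exact not_lt.1 hl
      obtain ⟨l0, hl0⟩ := mem_iUnion.1 (ht.2 hl')
      obtain ⟨hl1, hl2⟩ := mem_iUnion.1 hl0
      obtain ⟨x, f, hf, hx⟩ := h3 l0 l hl2 y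
      exact ⟨x, f, (Finset.le_sup (f := F) hl1) hf, hx⟩

/-- the conclusion, from the existence of non-surjective `T - l` on nontrivial spaces -/
theorem main_of
    (hR6 : ∀ (W : Submodule ℂ X) [IsClosed (W : Set X)] (S : (X ⧸ W) →L[ℂ] (X ⧸ W)),
      Nontrivial (X ⧸ W) → ∃ l : ℂ, ∃ y : X ⧸ W, ∀ x : X ⧸ W, S x - l • x ≠ y)
    (T : X →L[ℂ] X)
    (h : ∀ l : ℂ, ∃ F : Submodule ℂ X, FiniteDimensional ℂ F ∧
      ∀ y : X, ∃ x : X, ∃ f ∈ F, T x - l • x + f = y) :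
    ∃ S : Set X, S.Countable ∧ (Submodule.span ℂ S).topologicalClosure = ⊤ := by
  classical
  obtain ⟨F, hF, hF2⟩ := one_space T h
  obtain ⟨s, hs⟩ := (Module.Finite.iff_fg.1 hF : F.FG)
  let S : Set X := ⋃ k : ℕ, (fun x => (T ^ k) x) '' (s : Set X)
  refine ⟨S, countable_iUnion fun k => (s.finite_toSet.image _).countable, ?_⟩
  set W : Submodule ℂ X := (Submodule.span ℂ S).topologicalClosure with hW
  have hWc : IsClosed (W : Set X) := Submodule.isClosed_topologicalClosure _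
  have hsub : Submodule.span ℂ S ≤ W := Submodule.le_topologicalClosure _
  have hFW : F ≤ W := by
    rw [← hs]
    refine (Submodule.span_mono ?_).trans hsub
    intro x hx
    refine mem_iUnion.2 ⟨0, x, hx, ?_⟩
    simp
  have hinv0 : Submodule.span ℂ S ≤ (Submodule.span ℂ S).comap (T : X →ₗ[ℂ] X) := by
    rw [Submodule.span_le]
    intro y hy
    obtain ⟨k, hk⟩ := mem_iUnion.1 hy
    obtain ⟨x, hx, rfl⟩ := hk
    refine Submodule.subset_span (mem_iUnion.2 ⟨k + 1, x, hx, ?_⟩)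
    simp only [pow_succ']
    rfl
  have hinv : W ≤ W.comap (T : X →ₗ[ℂ] X) := by
    refine Submodule.topologicalClosure_minimal _ ?_ ?_
    · exact hinv0.trans (Submodule.comap_mono hsub)
    · exact hWc.preimage T.continuous
  let S' : (X ⧸ W) →L[ℂ] (X ⧸ W) := W.liftQL (W.mkQL.comp T) (by
    intro x hx
    rw [LinearMap.mem_ker]
    exact (Submodule.Quotient.mk_eq_zero W).2 (hinv hx))
  by_contra hne
  have hnt : Nontrivial (X ⧸ W) := Submodule.Quotient.nontrivial_iff.2 hne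
  obtain ⟨l, y, hy⟩ := hR6 W S' hnt
  obtain ⟨x, rfl⟩ := Submodule.Quotient.mk_surjective W y
  obtain ⟨z, f, hf, hz⟩ := hF2 l x
  apply hy (Submodule.Quotient.mk z)
  have h1 : S' (Submodule.Quotient.mk z) = Submodule.Quotient.mk (T z) := rfl
  rw [h1, ← Submodule.Quotient.mk_smul, ← Submodule.Quotient.mk_sub, Submodule.Quotient.eq]
  have h2 : T z - l • z - x = -f := by
    rw [← hz]
    abel
  rw [h2]
  exact W.neg_mem (hFW hf)

end Vale.Agent.P129s.R7
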