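import Vale.Agent.P129s.Transfer
import Vale.Agent.P129s.Dense

/-!
# P129: the three-space property
-/

open Submodule

namespace Vale.Agent.P129s

open Vale.Agent.P129

variable {𝕜 X Z : Type*} [RCLike 𝕜] [NormedAddCommGroup X] [NormedSpace 𝕜 X]
  [NormedAddCommGroup Z] [NormedSpace 𝕜 Z]

theorem sq_of_surjective [CompleteSpace X] [CompleteSpace Z] (f : X →L[𝕜] Z)
    (hf : Function.Surjective f) (hs : TopologicalSpace.SeparableSpace Z)
    (hinf : ¬ FiniteDimensional 𝕜 Z) : SQ 𝕜 X := by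
  obtain ⟨K, hK, hpre⟩ := f.exists_preimage_norm_le hf
  obtain ⟨t, ht, htd⟩ := TopologicalSpace.exists_countable_dense Z
  choose g hg using hf
  set N : Submodule 𝕜 X := LinearMap.ker (f : X →ₗ[𝕜] Z) with hN
  refine ⟨N, g '' t, ?_, ht.image g, ?_, ?_⟩
  · exact isClosed_singleton.preimage f.continuous
  · rw [← Submodule.dense_iff_topologicalClosure_eq_top]
    intro x
    rw [Metric.mem_closure_iff]
    intro ε hε
    obtain ⟨z, hz, hxz⟩ := htd.exists_dist_lt (f x) (show 0 < ε / K by positivity)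
    rw [dist_eq_norm] at hxz
    obtain ⟨w, hw, hwn⟩ := hpre (f x - z)
    refine ⟨x - w, ?_, ?_⟩
    · have e : x - w = g z + (x - w - g z) := by abel
      rw [e]
      refine Submodule.add_mem_sup (Submodule.subset_span ⟨z, hz, rfl⟩) ?_
      rw [hN, LinearMap.mem_ker]
      simp only [ContinuousLinearMap.coe_coe, map_sub]
      rw [hw, hg]
      abel
    · rw [dist_eq_norm, sub_sub_cancel]
      calc ‖w‖ ≤ K * ‖f x - z‖ := hwn
        _ < K * (ε / K) := by gcongr
        _ = ε := by field_simp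
  · intro h
    exact hinf (Module.Finite.equiv (LinearMap.quotKerEquivOfSurjective (f : X →ₗ[𝕜] Z)
      (fun z => ⟨g z, hg z⟩)))

/-- Three-space property. -/
theorem three_space [CompleteSpace X] (W : Submodule 𝕜 X) [hW : IsClosed (W : Set X)]
    (h : HasSepQuot 𝕜 X) : SQ 𝕜 W ∨ SQ 𝕜 (X ⧸ W) := by
  by_contra hcon
  push Not at hcon
  obtain ⟨hbW, hbQ⟩ := hcon
  obtain ⟨M, hM, hsep, hinf⟩ := h
  obtain ⟨M', S, hM', hS, hd, hinf'⟩ : ∃ (M' : Submodule 𝕜 X) (S : Set X), M' = M ∧ S.Countable ∧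
      (Submodule.span 𝕜 S ⊔ M).topologicalClosure = ⊤ ∧ True := by
    obtain ⟨t, ht, htd⟩ := TopologicalSpace.exists_countable_dense (X ⧸ M)
    choose g hg using Submodule.mkQ_surjective M
    refine ⟨M, g '' t, rfl, ht.image g, ?_, trivial⟩
    rw [← Submodule.dense_iff_topologicalClosure_eq_top]
    intro x
    rw [mem_closure_iff_nhds]
    intro U hU
    obtain ⟨V, hVU, hVo, hxV⟩ := mem_nhds_iff.1 hU
    obtain ⟨q, hq, hqt⟩ := htd.inter_open_nonempty _ (isOpen_mkQ_image M hVo)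
      ⟨M.mkQ x, x, hxV, rfl⟩
    obtain ⟨v, hv, rfl⟩ := hq
    refine ⟨v, hVU hv, ?_⟩
    have h1 : g (M.mkQ v) ∈ Submodule.span 𝕜 (g '' t) := Submodule.subset_span ⟨_, hqt, rfl⟩
    have h2 : v - g (M.mkQ v) ∈ M := by
      rw [← Submodule.Quotient.mk_eq_zero, Submodule.Quotient.mk_sub]
      have := hg (M.mkQ v)
      simp only [Submodule.mkQ_apply] at this ⊢
      rw [this, sub_self]
    have e : v = g (M.mkQ v) + (v - g (M.mkQ v)) := by abel
    rw [e]
    exact Submodule.add_mem_sup h1 h2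
  have hMc : CompleteSpace M := hM.completeSpace_coe
  have hMi : IsClosed (M : Set X) := hM
  -- the operator `M → X ⧸ W`
  set R : M →L[𝕜] X ⧸ W := W.mkQL.comp M.subtypeL with hR
  set C : Submodule 𝕜 (X ⧸ W) := (LinearMap.range (R : M →ₗ[𝕜] X ⧸ W)).topologicalClosure with hC
  have hCc : IsClosed (C : Set (X ⧸ W)) := Submodule.isClosed_topologicalClosure _
  have hRC : ∀ m, R m ∈ C := fun m => Submodule.le_topologicalClosure _ ⟨m, rfl⟩
  have hCfin : FiniteDimensional 𝕜 ((X ⧸ W) ⧸ C) := by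
    by_contra hCinf
    apply hbQ
    refine ⟨C, W.mkQ '' S, hCc, hS.image _, ?_, hCinf⟩
    rw [← Submodule.dense_iff_topologicalClosure_eq_top] at hd ⊢
    have h4 : Dense (W.mkQ '' (((Submodule.span 𝕜 S ⊔ M : Submodule 𝕜 X)) : Set X)) :=
      DenseRange.dense_image (Submodule.mkQ_surjective W).denseRange (continuous_mkQ W) hd
    refine h4.mono ?_
    rintro _ ⟨x, hx, rfl⟩
    obtain ⟨a, ha, b, hb, rfl⟩ := Submodule.mem_sup.1 hx
    rw [map_add]
    refine Submodule.add_mem_sup ?_ (hRC ⟨b, hb⟩)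
    have h5 : W.mkQ a ∈ (Submodule.span 𝕜 S).map W.mkQ := ⟨a, ha, rfl⟩
    rwa [Submodule.map_span] at h5
  have hsurj : Function.Surjective (R.codRestrict C hRC) := by
    by_contra hns
    have : CompleteSpace C := hCc.completeSpace_coe
    refine hbQ (sq_of_finite_codim C hCc hCfin (sq_of_denseRange (R.codRestrict C hRC) ?_ hns))
    intro y
    rw [Metric.mem_closure_iff]
    intro ε hε
    have hy : (y : X ⧸ W) ∈ closure ((LinearMap.range (R : M →ₗ[𝕜] X ⧸ W) :
        Submodule 𝕜 (X ⧸ W)) : Set (X ⧸ W)) := y.2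
    rw [Metric.mem_closure_iff] at hy
    obtain ⟨_, ⟨x, rfl⟩, hx⟩ := hy ε hε
    exact ⟨R.codRestrict C hRC x, ⟨x, rfl⟩, hx⟩
  -- `V = W + M` is closed
  set V : Submodule 𝕜 X := C.comap W.mkQ with hV
  have hVc : IsClosed (V : Set X) := hCc.preimage (continuous_mkQ W)
  have hMV : M ≤ V := fun m hm => hRC ⟨m, hm⟩
  have hVfin : FiniteDimensional 𝕜 (X ⧸ V) := by
    have hinj : Function.Injective (Submodule.mapQ V C W.mkQ le_rfl) := by
      rw [injective_iff_map_eq_zero]
      intro z hz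
      obtain ⟨w, rfl⟩ := Submodule.mkQ_surjective V z
      simp only [Submodule.mkQ_apply, Submodule.mapQ_apply, Submodule.Quotient.mk_eq_zero] at hz ⊢
      exact hz
    exact Module.Finite.of_injective _ hinj
  set P : Submodule 𝕜 (X ⧸ M) := V.map M.mkQ with hP
  have hPpre : M.mkQ ⁻¹' (P : Set (X ⧸ M)) = V := by
    ext x
    constructor
    · rintro ⟨v, hv, hvx⟩
      have h1 : x - v ∈ M := by
        rw [← Submodule.Quotient.mk_eq_zero, Submodule.Quotient.mk_sub, sub_eq_zero]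
        simpa using hvx.symm
      have := V.add_mem (hMV h1) hv
      rwa [sub_add_cancel] at this
    · intro hx
      exact ⟨x, hx, rfl⟩
  have hPc : IsClosed (P : Set (X ⧸ M)) := by
    have h1 : IsClosed (M.mkQ ⁻¹' (P : Set (X ⧸ M))) := by rw [hPpre]; exact hVc
    exact (isQuotientMap_quot_mk.isClosed_preimage).1 h1
  have hPcomp : CompleteSpace P := hPc.completeSpace_coe
  have hPinf : ¬ FiniteDimensional 𝕜 P := by
    intro hPf
    have hQf : FiniteDimensional 𝕜 ((X ⧸ M) ⧸ P) := by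
      have hle : V ≤ P.comap M.mkQ := fun v hv => ⟨v, hv, rfl⟩
      have hs : Function.Surjective (Submodule.mapQ V P M.mkQ hle) := by
        intro z
        obtain ⟨y, rfl⟩ := Submodule.mkQ_surjective P z
        obtain ⟨x, rfl⟩ := Submodule.mkQ_surjective M y
        exact ⟨V.mkQ x, by simp⟩
      exact Module.Finite.of_surjective _ hs
    exact hinf (Module.Finite.of_submodule_quotient P)
  have hPsep : TopologicalSpace.SeparableSpace P := by
    have : SecondCountableTopology (X ⧸ M) := UniformSpace.secondCountable_of_separable _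
    infer_instance
  have hWV : ∀ w : W, M.mkQL w ∈ P := by
    intro w
    refine ⟨w, ?_, rfl⟩
    show W.mkQ (w : X) ∈ C
    have : W.mkQ (w : X) = 0 := by simp
    rw [this]
    exact C.zero_mem
  have hWcomp : CompleteSpace W := hW.completeSpace_coe
  refine hbW (sq_of_surjective ((M.mkQL.comp W.subtypeL).codRestrict P hWV) ?_ hPsep hPinf)
  rintro ⟨p, v, hv, rfl⟩
  obtain ⟨m, hm⟩ := hsurj ⟨W.mkQ v, hv⟩
  have h1 : W.mkQ (m : X) = W.mkQ v := congrArg Subtype.val hm
  have h2 : v - m ∈ W := by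
    rw [← Submodule.Quotient.mk_eq_zero, Submodule.Quotient.mk_sub, sub_eq_zero]
    simpa using h1.symm
  refine ⟨⟨v - m, h2⟩, Subtype.ext ?_⟩
  show M.mkQ (v - m) = M.mkQ v
  rw [map_sub]
  have : M.mkQ (m : X) = 0 := by simp
  rw [this, sub_zero]

end Vale.Agent.P129s
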