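import Vale.Agent.P129s.Ess
import Vale.Agent.P129s.ThreeSpace

/-!
# P129: real scalars, by complexification
-/

open Submodule

namespace Vale.Agent.P129s

open Vale.Agent.P129

section cx

variable (X : Type*) [NormedAddCommGroup X] [NormedSpace ℝ X]

/-- the complexification -/
def Cx : Type _ := ℂ →L[ℝ] X

noncomputable instance : NormedAddCommGroup (Cx X) :=
  inferInstanceAs (NormedAddCommGroup (ℂ →L[ℝ] X))

noncomputable instance : NormedSpace ℝ (Cx X) := inferInstanceAs (NormedSpace ℝ (ℂ →L[ℝ] X))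

instance [CompleteSpace X] : CompleteSpace (Cx X) :=
  inferInstanceAs (CompleteSpace (ℂ →L[ℝ] X))

variable {X}

/-- the underlying map -/
def Cx.f (u : Cx X) : ℂ →L[ℝ] X := u

/-- constructor -/
def Cx.mk (u : ℂ →L[ℝ] X) : Cx X := u

theorem Cx.ext {u v : Cx X} (h : ∀ z, u.f z = v.f z) : u = v :=
  ContinuousLinearMap.ext (f := u.f) (g := v.f) h

noncomputable instance : SMul ℂ (Cx X) :=
  ⟨fun c u => Cx.mk (u.f.comp (ContinuousLinearMap.mul ℝ ℂ c))⟩

@[simp] theorem Cx.smul_f (c : ℂ) (u : Cx X) (z : ℂ) : (c • u).f z = u.f (c * z) := rfl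

@[simp] theorem Cx.add_f (u v : Cx X) (z : ℂ) : (u + v).f z = u.f z + v.f z := rfl

@[simp] theorem Cx.sub_f (u v : Cx X) (z : ℂ) : (u - v).f z = u.f z - v.f z := rfl

@[simp] theorem Cx.zero_f (z : ℂ) : (0 : Cx X).f z = 0 := rfl

@[simp] theorem Cx.mk_f (u : ℂ →L[ℝ] X) (z : ℂ) : (Cx.mk u).f z = u z := rfl

@[simp] theorem Cx.rsmul_f (r : ℝ) (u : Cx X) (z : ℂ) : (r • u).f z = r • u.f z := rfl

noncomputable instance : Module ℂ (Cx X) where
  one_smul u := Cx.ext fun z => by simp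
  mul_smul c d u := Cx.ext fun z => by simp only [Cx.smul_f]; congr 1; ring
  smul_zero c := Cx.ext fun z => by simp
  smul_add c u v := Cx.ext fun z => by simp
  add_smul c d u := Cx.ext fun z => by simp [add_mul]
  zero_smul u := Cx.ext fun z => by simp

noncomputable instance : NormedSpace ℂ (Cx X) where
  norm_smul_le c u := by
    have h1 : ‖u.f.comp (ContinuousLinearMap.mul ℝ ℂ c)‖ ≤
        ‖u.f‖ * ‖ContinuousLinearMap.mul ℝ ℂ c‖ := ContinuousLinearMap.opNorm_comp_le _ _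
    have h2 : ‖ContinuousLinearMap.mul ℝ ℂ c‖ ≤ ‖c‖ := ContinuousLinearMap.opNorm_mul_apply_le ℝ ℂ c
    calc ‖c • u‖ ≤ ‖u.f‖ * ‖ContinuousLinearMap.mul ℝ ℂ c‖ := h1
      _ ≤ ‖u.f‖ * ‖c‖ := mul_le_mul_of_nonneg_left h2 (norm_nonneg _)
      _ = ‖c‖ * ‖u‖ := mul_comm _ _

instance : IsScalarTower ℝ ℂ (Cx X) :=
  ⟨fun r c u => Cx.ext fun z => by
    simp only [Cx.smul_f, Cx.rsmul_f]
    rw [smul_mul_assoc, map_smul]⟩

/-- the real embedding -/
noncomputable def JJ : X →L[ℝ] Cx X :=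
  LinearMap.mkContinuous
    { toFun := fun x => Cx.mk (ContinuousLinearMap.smulRight Complex.reCLM x)
      map_add' := fun x y => Cx.ext fun z => by simp
      map_smul' := fun r x => Cx.ext fun z => by
        simp only [Cx.mk_f, ContinuousLinearMap.smulRight_apply, Cx.rsmul_f, RingHom.id_apply]
        rw [smul_comm] } 1 (by
    intro x
    rw [one_mul]
    refine ContinuousLinearMap.opNorm_le_bound _ (norm_nonneg _) fun z => ?_
    show ‖z.re • x‖ ≤ _
    rw [norm_smul, mul_comm]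
    exact mul_le_mul_of_nonneg_left (Complex.abs_re_le_norm z) (norm_nonneg _))

@[simp] theorem JJ_f (x : X) (z : ℂ) : (JJ x).f z = z.re • x := rfl

theorem Cx.decomp (u : Cx X) : u = JJ (u.f 1) - Complex.I • JJ (u.f Complex.I) := by
  refine Cx.ext fun z => ?_
  simp only [Cx.sub_f, Cx.smul_f, JJ_f]
  have h : z = z.re • (1 : ℂ) + z.im • Complex.I := by
    apply Complex.ext <;> simp
  conv_lhs => rw [h]
  rw [map_add, map_smul, map_smul]
  simp

/-- the complexified operator -/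
noncomputable def Tc (T : X →L[ℝ] X) : Cx X →L[ℂ] Cx X :=
  LinearMap.mkContinuous
    { toFun := fun u => Cx.mk (T.comp u.f)
      map_add' := fun u v => Cx.ext fun z => by simp
      map_smul' := fun c u => Cx.ext fun z => by simp } ‖T‖ (by
    intro u
    exact ContinuousLinearMap.opNorm_comp_le T u.f)

@[simp] theorem Tc_f (T : X →L[ℝ] X) (u : Cx X) (z : ℂ) : (Tc T u).f z = T (u.f z) := rfl

end cx

variable {X : Type*} [NormedAddCommGroup X] [NormedSpace ℝ X] [CompleteSpace X]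

theorem sq_pull {Z : Type*} [NormedAddCommGroup Z] [NormedSpace ℝ Z] [CompleteSpace Z]
    (f : X →L[ℝ] Z) (hf : Function.Surjective f) (h : SQ ℝ Z) : SQ ℝ X := by
  obtain ⟨N, hN, hs, hinf⟩ := hasSepQuot_of_SQ h
  have : IsClosed (N : Set Z) := hN
  exact sq_of_surjective (N.mkQL.comp f) ((Submodule.mkQ_surjective N).comp hf) hs hinf

theorem bad_cx (hbad : ¬ HasSepQuot ℝ X) : ¬ HasSepQuot ℂ (Cx X) := by
  rintro ⟨M, hM, hs, hinf⟩
  have : IsClosed (M : Set (Cx X)) := hM
  have hinfR : ¬ FiniteDimensional ℝ (Cx X ⧸ M) := by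
    intro h
    exact hinf (Module.Finite.of_restrictScalars_finite ℝ ℂ _)
  have h1 : SQ ℝ (Cx X) := by
    refine sq_of_surjective (Z := Cx X ⧸ M)
      ⟨(M.mkQ.restrictScalars ℝ : Cx X →ₗ[ℝ] Cx X ⧸ M), continuous_mkQ M⟩
      (Submodule.mkQ_surjective M) hs hinfR
  set ev : Cx X →L[ℝ] X := LinearMap.mkContinuous
    { toFun := fun u => u.f 1
      map_add' := fun u v => rfl
      map_smul' := fun c u => rfl } 1 (by
    intro u
    show ‖u.f 1‖ ≤ 1 * ‖u.f‖
    calc ‖u.f 1‖ ≤ ‖u.f‖ * ‖(1 : ℂ)‖ := u.f.le_opNorm 1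
      _ = 1 * ‖u.f‖ := by rw [norm_one, mul_one, one_mul]) with hev
  set W : Submodule ℝ (Cx X) := LinearMap.ker (ev : Cx X →ₗ[ℝ] X) with hW
  have hWc : IsClosed (W : Set (Cx X)) := isClosed_singleton.preimage ev.continuous
  have hWcomp : CompleteSpace W := hWc.completeSpace_coe
  have hmem : ∀ u : Cx X, u ∈ W ↔ u.f 1 = 0 := fun u => Iff.rfl
  rcases three_space W (hasSepQuot_of_SQ h1) with h2 | h2
  · -- surjection from `X` onto `W`
    have hK : ∀ x : X, Complex.I • JJ x ∈ W := by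
      intro x
      rw [hmem]
      simp
    let K : X →L[ℝ] Cx X :=
      ⟨{ toFun := fun x => Complex.I • JJ x
         map_add' := fun x y => by rw [map_add, smul_add]
         map_smul' := fun r x => by rw [map_smul, RingHom.id_apply, smul_comm] },
        (JJ.continuous.const_smul Complex.I)⟩
    refine hbad (hasSepQuot_of_SQ (sq_pull (K.codRestrict W hK) ?_ h2))
    rintro ⟨u, hu⟩
    refine ⟨-(u.f Complex.I), Subtype.ext ?_⟩
    show Complex.I • JJ (-(u.f Complex.I)) = u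
    have h3 := Cx.decomp u
    rw [(hmem u).1 hu, map_zero, zero_sub] at h3
    rw [map_neg, smul_neg]
    exact h3.symm
  · refine hbad (hasSepQuot_of_SQ (sq_pull (W.mkQL.comp JJ) ?_ h2))
    intro q
    obtain ⟨u, rfl⟩ := Submodule.mkQ_surjective W q
    refine ⟨u.f 1, ?_⟩
    show W.mkQ (JJ (u.f 1)) = W.mkQ u
    rw [← sub_eq_zero, ← map_sub]
    refine (Submodule.Quotient.mk_eq_zero W).2 ?_
    rw [hmem]
    simp

/-- real scalars -/
theorem real_ess (hX : ¬ FiniteDimensional ℝ X) (hbad : ¬ HasSepQuot ℝ X) (T : ℕ → X →L[ℝ] X)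
    (hT : ∀ i j, TopologicalSpace.IsSeparable (Set.range (T i * T j - T j * T i))) :
    ∃ (Y : Submodule ℝ X) (a b : ℕ → ℝ), IsClosed (Y : Set X) ∧ ¬ FiniteDimensional ℝ (X ⧸ Y) ∧
      (∀ n x, T n (T n x) - (2 * a n) • T n x + (a n ^ 2 + b n ^ 2) • x ∈ Y) ∧
      ∀ S : X →L[ℝ] X, (∀ n, S * T n = T n * S) → ∀ x ∈ Y, S x ∈ Y := by
  have hXc : ¬ FiniteDimensional ℂ (Cx X) := by
    intro h
    have h1 : FiniteDimensional ℝ (Cx X) := Module.Finite.trans ℂ _
    have hinj : Function.Injective (JJ : X →L[ℝ] Cx X) := by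
      intro x y hxy
      have := congrArg (fun u : Cx X => u.f 1) hxy
      simpa using this
    exact hX (Module.Finite.of_injective (JJ : X →L[ℝ] Cx X).toLinearMap hinj)
  have hTc : ∀ i j, TopologicalSpace.IsSeparable
      (Set.range (Tc (T i) * Tc (T j) - Tc (T j) * Tc (T i))) := by
    intro i j
    have hc : Continuous fun p : X × X => JJ p.1 - Complex.I • JJ p.2 :=
      (JJ.continuous.comp continuous_fst).sub
        (show Continuous fun p : X × X => Complex.I • JJ p.2 from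
          (JJ.continuous.comp continuous_snd).const_smul Complex.I)
    refine (((hT i j).prod (hT i j)).image hc).mono ?_
    rintro _ ⟨u, rfl⟩
    refine ⟨((T i * T j - T j * T i) (u.f 1), (T i * T j - T j * T i) (u.f Complex.I)),
      ⟨⟨_, rfl⟩, ⟨_, rfl⟩⟩, ?_⟩
    rw [Cx.decomp ((Tc (T i) * Tc (T j) - Tc (T j) * Tc (T i)) u)]
    rfl
  obtain ⟨Yc, l, h1, h2, h3, h4, -⟩ := main_ess hXc
    (fun h => bad_cx hbad (hasSepQuot_of_SQ h)) (fun n => Tc (T n)) hTc
  have hYcT : ∀ n, ∀ u ∈ Yc, Tc (T n) u ∈ Yc := by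
    intro n u hu
    have := Yc.add_mem (h3 n u) (Yc.smul_mem (l n) hu)
    rwa [sub_add_cancel] at this
  set Y : Submodule ℝ X := (Yc.restrictScalars ℝ).comap (JJ : X →L[ℝ] Cx X).toLinearMap with hY
  have hYm : ∀ x, x ∈ Y ↔ JJ x ∈ Yc := fun x => Iff.rfl
  refine ⟨Y, fun n => (l n).re, fun n => (l n).im, h1.preimage JJ.continuous, ?_, ?_, ?_⟩
  · intro hfin
    apply h2
    let φ : X ⧸ Y →ₗ[ℝ] Cx X ⧸ Yc := Y.liftQ
      ((Yc.mkQ.restrictScalars ℝ).comp (JJ : X →L[ℝ] Cx X).toLinearMap) (by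
        intro x hx
        exact (Submodule.Quotient.mk_eq_zero Yc).2 hx)
    let φ' : X ⧸ Y →ₗ[ℝ] Cx X ⧸ Yc :=
      { toFun := fun v => -(Complex.I • φ v)
        map_add' := fun v w => by rw [map_add, smul_add, neg_add]
        map_smul' := fun r v => by rw [map_smul, RingHom.id_apply, smul_neg, smul_comm] }
    have hs : Function.Surjective (φ.coprod φ') := by
      intro q
      obtain ⟨u, rfl⟩ := Submodule.mkQ_surjective Yc q
      refine ⟨(Y.mkQ (u.f 1), Y.mkQ (u.f Complex.I)), ?_⟩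
      conv_rhs => rw [Cx.decomp u]
      rw [LinearMap.coprod_apply, map_sub, map_smul, sub_eq_add_neg]
      rfl
    have h5 : Module.Finite ℝ (Cx X ⧸ Yc) := Module.Finite.of_surjective _ hs
    exact Module.Finite.of_restrictScalars_finite ℝ ℂ _
  · intro n x
    rw [hYm]
    have h5 : Tc (T n) (Tc (T n) (JJ x) - l n • JJ x) - (starRingEnd ℂ (l n)) •
        (Tc (T n) (JJ x) - l n • JJ x) ∈ Yc :=
      Yc.sub_mem (hYcT n _ (h3 n (JJ x))) (Yc.smul_mem _ (h3 n (JJ x)))
    have h6 : JJ (T n (T n x) - (2 * (l n).re) • T n x + ((l n).re ^ 2 + (l n).im ^ 2) • x) =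
        Tc (T n) (Tc (T n) (JJ x) - l n • JJ x) - (starRingEnd ℂ (l n)) •
        (Tc (T n) (JJ x) - l n • JJ x) := by
      refine Cx.ext fun z => ?_
      simp only [JJ_f, Cx.sub_f, Cx.smul_f, Tc_f, map_sub, map_smul, smul_sub, smul_add, smul_smul]
      have e1 : (starRingEnd ℂ (l n) * z).re = (l n).re * z.re + (l n).im * z.im := by
        simp
      have e2 : (l n * z).re = (l n).re * z.re - (l n).im * z.im := by simp
      have e3 : (starRingEnd ℂ (l n) * l n * z).re = ((l n).re ^ 2 + (l n).im ^ 2) * z.re := by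
        simp
        ring
      rw [e1, e2, e3]
      module
    rw [h6]
    exact h5
  · intro S hS x hx
    rw [hYm] at hx ⊢
    have h5 := h4 (Tc S) (fun n u => Cx.ext fun z => by
      have := congrArg (fun R : X →L[ℝ] X => R (u.f z)) (hS n)
      simpa using this) (JJ x) hx
    have h6 : Tc S (JJ x) = JJ (S x) := Cx.ext fun z => by simp
    rwa [h6] at h5

end Vale.Agent.P129s
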