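import Vale.Agent.P129s.Surj

/-! P129, row R7. -/

namespace Vale.Agent.P129s

open Filter Topology Set

namespace Sep

variable {X : Type*} [NormedAddCommGroup X] [NormedSpace ℂ X] [CompleteSpace X]

/-- The range condition is open in `l`. -/
theorem open_range (T : X →L[ℂ] X) (l : ℂ) (F : Submodule ℂ X) [FiniteDimensional ℂ F]
    (hF : ∀ y : X, ∃ x : X, ∃ f ∈ F, (T - l • ContinuousLinearMap.id ℂ X) x + f = y) :
    ∀ᶠ m in 𝓝 l, ∀ y : X, ∃ x : X, ∃ f ∈ F, (T - m • ContinuousLinearMap.id ℂ X) x + f = y := by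
  set A : X →L[ℂ] X := T - l • ContinuousLinearMap.id ℂ X with hAdef
  have : CompleteSpace F := FiniteDimensional.complete ℂ F
  have hcl : IsClosed (F : Set X) := Submodule.closed_of_finiteDimensional F
  let B : X × F →L[ℂ] X := A.coprod F.subtypeL
  have hB : Function.Surjective B := by
    intro y
    obtain ⟨x, f, hf, h⟩ := hF y
    exact ⟨(x, ⟨f, hf⟩), by simpa [B] using h⟩
  obtain ⟨c, hc, hpre⟩ := ContinuousLinearMap.exists_preimage_norm_le B hB
  choose s hs1 hs2 using hpre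
  have hs1' : ∀ y, A (s y).1 + ((s y).2 : X) = y := by
    intro y
    have := hs1 y
    simpa [B] using this
  have hs2' : ∀ y, ‖(s y).1‖ ≤ c * ‖y‖ := fun y => (norm_fst_le _).trans (hs2 y)
  have hnhds : ∀ᶠ m in 𝓝 l, dist m l < 1 / (4 * c) := Metric.ball_mem_nhds l (by positivity)
  filter_upwards [hnhds] with m hm y
  have hδ : ‖m - l‖ * c ≤ 1 / 4 := by
    rw [dist_eq_norm, lt_div_iff₀ (by positivity)] at hm
    linarith
  let u : ℕ → X := fun n => (fun z => (s z).1)^[n] (s y).1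
  let f : ℕ → X := fun n => if n = 0 then 0 else ((s (u (n - 1))).2 : X)
  have hu : ∀ n, ‖u n‖ ≤ (c * ‖y‖) * c ^ n := by
    intro n
    induction n with
    | zero =>
      show ‖(s y).1‖ ≤ _
      simpa using hs2' y
    | succ n ih =>
      show ‖(fun z => (s z).1)^[n + 1] (s y).1‖ ≤ _
      rw [Function.iterate_succ_apply']
      calc ‖(s ((fun z => (s z).1)^[n] (s y).1)).1‖ ≤ c * ‖u n‖ := hs2' _
        _ ≤ c * ((c * ‖y‖) * c ^ n) := mul_le_mul_of_nonneg_left ih hc.le
        _ = (c * ‖y‖) * c ^ (n + 1) := by ring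
  have hAu : ∀ n, A (u (n + 1)) + f (n + 1) = u n := by
    intro n
    have h1 : u (n + 1) = (s (u n)).1 := by
      show (fun z => (s z).1)^[n + 1] (s y).1 = _
      rw [Function.iterate_succ_apply']
    have h2 : f (n + 1) = ((s (u n)).2 : X) := by
      simp [f]
    rw [h1, h2]
    exact hs1' _
  obtain ⟨x, -, hlim⟩ := Surj.series A u f c (c * ‖y‖) hc hu hAu (m - l) hδ
  have hmem : A (u 0) - (A x - (m - l) • x) ∈ F := by
    refine hcl.mem_of_tendsto hlim (Eventually.of_forall fun n => ?_)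
    refine F.sum_mem fun k _ => F.smul_mem _ ?_
    show (if k + 1 = 0 then 0 else ((s (u (k + 1 - 1))).2 : X)) ∈ F
    rw [if_neg (Nat.succ_ne_zero k)]
    exact (s _).2.2
  refine ⟨x, (A (u 0) - (A x - (m - l) • x)) + ((s y).2 : X), F.add_mem hmem (s y).2.2, ?_⟩
  have h3 : (T - m • ContinuousLinearMap.id ℂ X) x = A x - (m - l) • x := by
    rw [hAdef]
    simp only [sub_apply, smul_apply, ContinuousLinearMap.id_apply, sub_smul]
    abel
  have h4 : A (u 0) + ((s y).2 : X) = y := hs1' y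
  rw [h3]
  calc A x - (m - l) • x + (A (u 0) - (A x - (m - l) • x) + ((s y).2 : X))
      = A (u 0) + ((s y).2 : X) := by abel
    _ = y := h4

end Sep

/-- R7 -/
theorem exists_countable_span {X : Type*} [NormedAddCommGroup X] [NormedSpace ℂ X]
    [CompleteSpace X] (T : X →L[ℂ] X)
    (h : ∀ l : ℂ, ∃ F : Submodule ℂ X, FiniteDimensional ℂ F ∧
      LinearMap.range ((T - l • ContinuousLinearMap.id ℂ X : X →L[ℂ] X) : X →ₗ[ℂ] X) ⊔ F = ⊤) :
    ∃ S : Set X, S.Countable ∧ (Submodule.span ℂ S).topologicalClosure = ⊤ := by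
  classical
  choose F hFfin hF using h
  have hF' : ∀ l : ℂ, ∀ y : X, ∃ x : X, ∃ f ∈ F l, (T - l • ContinuousLinearMap.id ℂ X) x + f = y := by
    intro l y
    have h1 : y ∈ LinearMap.range ((T - l • ContinuousLinearMap.id ℂ X : X →L[ℂ] X) : X →ₗ[ℂ] X) ⊔ F l := by
      rw [hF l]
      exact Submodule.mem_top
    obtain ⟨a, ⟨x, rfl⟩, f, hf, hy⟩ := Submodule.mem_sup.mp h1
    exact ⟨x, f, hf, hy⟩
  -- a countable subcover
  have hopen : ∀ l : ℂ, ∀ᶠ m in 𝓝 l, ∀ y : X, ∃ x : X, ∃ f ∈ F l,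
      (T - m • ContinuousLinearMap.id ℂ X) x + f = y := by
    intro l
    have := hFfin l
    exact Sep.open_range T l (F l) (hF' l)
  obtain ⟨t, htc, htU⟩ := TopologicalSpace.countable_cover_nhds
    (f := fun l => {m : ℂ | ∀ y : X, ∃ x : X, ∃ f ∈ F l,
      (T - m • ContinuousLinearMap.id ℂ X) x + f = y}) (fun l => hopen l)
  -- finite spanning sets
  have hspan : ∀ l : ℂ, ∃ s : Finset X, Submodule.span ℂ (s : Set X) = F l := by
    intro l
    have := hFfin l
    exact (Submodule.fg_iff_finiteDimensional (F l)).mpr inferInstance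
  choose b hb using hspan
  let S : Set X := ⋃ l ∈ t, ⋃ k : ℕ, ((T ^ k : X →L[ℂ] X) '' (b l : Set X))
  have hScount : S.Countable :=
    htc.biUnion fun l _ => countable_iUnion fun k => ((b l).countable_toSet).image _
  refine ⟨S, hScount, ?_⟩
  by_contra hne
  set W : Submodule ℂ X := (Submodule.span ℂ S).topologicalClosure with hW
  have hWcl : IsClosed (W : Set X) := Submodule.isClosed_topologicalClosure _
  have : IsClosed (W : Set X) := hWcl
  have hTS : ∀ x ∈ S, T x ∈ S := by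
    intro x hx
    simp only [S, mem_iUnion, mem_image] at hx ⊢
    obtain ⟨l, hl, k, y, hy, rfl⟩ := hx
    refine ⟨l, hl, k + 1, y, hy, ?_⟩
    rw [pow_succ']
    rfl
  have hTspan : ∀ x ∈ Submodule.span ℂ S, T x ∈ Submodule.span ℂ S := by
    intro x hx
    have h1 : Submodule.span ℂ S ≤ (Submodule.span ℂ S).comap (T : X →ₗ[ℂ] X) := by
      rw [Submodule.span_le]
      intro z hz
      exact Submodule.subset_span (hTS z hz)
    exact h1 hx
  have hTW : ∀ x ∈ W, T x ∈ W := by
    intro x hx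
    have h1 : (Submodule.span ℂ S).topologicalClosure ≤ W.comap (T : X →ₗ[ℂ] X) := by
      apply Submodule.topologicalClosure_minimal
      · intro z hz
        exact (Submodule.le_topologicalClosure _) (hTspan z hz)
      · exact hWcl.preimage T.continuous
    exact h1 hx
  have hFW : ∀ l ∈ t, F l ≤ W := by
    intro l hl
    rw [← hb l, Submodule.span_le]
    intro z hz
    apply Submodule.le_topologicalClosure
    apply Submodule.subset_span
    simp only [S, mem_iUnion, mem_image]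
    exact ⟨l, hl, 0, z, hz, rfl⟩
  have : Nontrivial (X ⧸ W) := Submodule.Quotient.nontrivial_iff.mpr hne
  let Tq : (X ⧸ W) →L[ℂ] (X ⧸ W) := W.liftQL (W.mkQL ∘L T) (by
    intro x hx
    show W.mkQ (T x) = 0
    rw [Submodule.mkQ_apply, Submodule.Quotient.mk_eq_zero]
    exact hTW x hx)
  obtain ⟨m, hm⟩ := exists_not_surjective Tq
  apply hm
  intro z
  obtain ⟨y, rfl⟩ := Submodule.mkQ_surjective W z
  have hmt : m ∈ ⋃ l ∈ t, {m : ℂ | ∀ y : X, ∃ x : X, ∃ f ∈ F l,
      (T - m • ContinuousLinearMap.id ℂ X) x + f = y} := by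
    rw [htU]
    trivial
  simp only [mem_iUnion] at hmt
  obtain ⟨l, hl, hml⟩ := hmt
  obtain ⟨x, f, hf, hxy⟩ := hml y
  refine ⟨W.mkQ x, ?_⟩
  have h1 : (Tq - m • ContinuousLinearMap.id ℂ (X ⧸ W)) (W.mkQ x)
      = W.mkQ ((T - m • ContinuousLinearMap.id ℂ X) x) := by
    simp only [sub_apply, smul_apply, ContinuousLinearMap.id_apply, map_sub, map_smul]
    rfl
  rw [h1, ← hxy, map_add]
  have h2 : W.mkQ f = 0 := by
    rw [Submodule.mkQ_apply, Submodule.Quotient.mk_eq_zero]
    exact hFW l hl hf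
  rw [h2, add_zero]

end Vale.Agent.P129s
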