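import Vale.Agent.P129s.Transfer
import Vale.Agent.P129s.Inc
import Vale.Agent.P129s.Sep
import Vale.Agent.P129s.Dense

/-!
# P129: one operator on a space without separable quotients
-/

open Submodule

namespace Vale.Agent.P129s

open Vale.Agent.P129

variable {X : Type*} [NormedAddCommGroup X] [NormedSpace ℂ X] [CompleteSpace X]

/-- R8 -/
theorem single (hX : ¬ FiniteDimensional ℂ X) (hbad : ¬ SQ ℂ X) (T : X →L[ℂ] X) :
    ∃ l : ℂ, ¬ FiniteDimensional ℂ (X ⧸
      (LinearMap.range ((T - l • ContinuousLinearMap.id ℂ X : X →L[ℂ] X) :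
        X →ₗ[ℂ] X)).topologicalClosure) := by
  by_contra hcon
  push Not at hcon
  apply hbad
  obtain ⟨S, hS, hSd⟩ := exists_countable_span T (by
    intro l
    set R : X →L[ℂ] X := T - l • ContinuousLinearMap.id ℂ X with hR
    set Y : Submodule ℂ X := (LinearMap.range (R : X →ₗ[ℂ] X)).topologicalClosure with hY
    have hYc : IsClosed (Y : Set X) := Submodule.isClosed_topologicalClosure _
    have hYfin : FiniteDimensional ℂ (X ⧸ Y) := hcon l
    have hmem : ∀ x, R x ∈ Y := fun x => Submodule.le_topologicalClosure _ ⟨x, rfl⟩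
    have hcomp : CompleteSpace Y := hYc.completeSpace_coe
    have hdense : DenseRange (R.codRestrict Y hmem) := by
      intro y
      rw [Metric.mem_closure_iff]
      intro ε hε
      have hy : (y : X) ∈ closure ((LinearMap.range (R : X →ₗ[ℂ] X) : Submodule ℂ X) : Set X) :=
        y.2
      rw [Metric.mem_closure_iff] at hy
      obtain ⟨_, ⟨x, rfl⟩, hx⟩ := hy ε hε
      exact ⟨R.codRestrict Y hmem x, ⟨x, rfl⟩, hx⟩
    have hsurj : Function.Surjective (R.codRestrict Y hmem) := by
      by_contra hns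
      exact hbad (sq_of_finite_codim Y hYc hYfin (sq_of_denseRange _ hdense hns))
    obtain ⟨F, hF⟩ := Submodule.exists_isCompl Y
    refine ⟨F, Module.Finite.equiv (Submodule.quotientEquivOfIsCompl Y F hF), ?_⟩
    rw [eq_top_iff, ← hF.sup_eq_top]
    refine sup_le ?_ le_sup_right
    intro y hy
    obtain ⟨x, hx⟩ := hsurj ⟨y, hy⟩
    exact Submodule.mem_sup_left ⟨x, congrArg Subtype.val hx⟩)
  refine ⟨⊥, S, isClosed_singleton, hS, by rwa [sup_bot_eq], ?_⟩
  intro h
  exact hX (Module.Finite.equiv (Submodule.quotEquivOfEqBot (⊥ : Submodule ℂ X) rfl))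

end Vale.Agent.P129s
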