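import Vale.Agent.P129.Stmt

/-!
# P129: notions for the statement on separable algebras of operators
-/

namespace Vale.Agent.P129s

open Vale.Agent.P129

/-- `Y` is a closed subspace of infinite codimension which is invariant under the algebra `A`. -/
def Admissible {X : Type*} [NormedAddCommGroup X] [NormedSpace ℂ X]
    (A : Subalgebra ℂ (X →L[ℂ] X)) (Y : Submodule ℂ X) : Prop :=
  IsClosed (Y : Set X) ∧ ¬ FiniteDimensional ℂ (X ⧸ Y) ∧ ∀ S ∈ A, ∀ x ∈ Y, S x ∈ Y

/-- For every norm-separable unital algebra `A` of bounded operators on `X` there is a closed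
`A`-invariant subspace `Y` of infinite codimension such that
* every `S` in `A` with separable range has range in `Y`;
* every `S` in `A` which commutes with `A` modulo `Y` is a scalar modulo `Y`;
* the algebra of operators induced by `A` on `X ⧸ Y` is prime;
* the norm of every `S` in `A` as an operator on `X ⧸ Y` is the same as on every further
  invariant quotient `X ⧸ Y'` of infinite dimension. -/
def SeparableAlgebrasReduce (X : Type*) [NormedAddCommGroup X] [NormedSpace ℂ X] : Prop :=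
  ∀ A : Subalgebra ℂ (X →L[ℂ] X), TopologicalSpace.IsSeparable (A : Set (X →L[ℂ] X)) →
    ∃ Y : Submodule ℂ X, Admissible A Y ∧
      (∀ S ∈ A, TopologicalSpace.IsSeparable (Set.range S) → ∀ x, S x ∈ Y) ∧
      (∀ S ∈ A, (∀ R ∈ A, ∀ x, R (S x) - S (R x) ∈ Y) → ∃ c : ℂ, ∀ x, S x - c • x ∈ Y) ∧
      (∀ S ∈ A, ∀ R ∈ A, (∀ Q ∈ A, ∀ x, S (Q (R x)) ∈ Y) → (∀ x, S x ∈ Y) ∨ ∀ x, R x ∈ Y) ∧
      (∀ Y' : Submodule ℂ X, Y ≤ Y' → Admissible A Y' → ∀ S ∈ A, ∀ r : ℝ, 0 ≤ r →
        (∀ x, Metric.infDist (S x) (Y' : Set X) ≤ r * ‖x‖) →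
        ∀ x, Metric.infDist (S x) (Y : Set X) ≤ r * ‖x‖)

/-- Real scalars: for every sequence `T n` of bounded operators on `X` whose commutators have
separable range there are a closed subspace `Y` of infinite codimension and real numbers `a n`,
`b n` such that all `T n` satisfy `(T n - a n)^2 + (b n)^2 = 0` on `X ⧸ Y`; `Y` is invariant under
every bounded operator that commutes with the sequence. -/
def EssCommutingActQuadratically (X : Type*) [NormedAddCommGroup X] [NormedSpace ℝ X] : Prop :=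
  ∀ T : ℕ → X →L[ℝ] X,
    (∀ i j, TopologicalSpace.IsSeparable (Set.range (T i * T j - T j * T i))) →
    ∃ (Y : Submodule ℝ X) (a b : ℕ → ℝ), IsClosed (Y : Set X) ∧ ¬ FiniteDimensional ℝ (X ⧸ Y) ∧
      (∀ n x, T n (T n x) - (2 * a n) • T n x + (a n ^ 2 + b n ^ 2) • x ∈ Y) ∧
      ∀ S : X →L[ℝ] X, (∀ n, S * T n = T n * S) → ∀ x ∈ Y, S x ∈ Y

end Vale.Agent.P129s
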