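import Vale.Agent.P129s.AlgMain

/-!
# P129: separable algebras of operators on a space without separable quotients
-/

open Submodule

namespace Vale.Agent.P129s

open Vale.Agent.P129

variable {X : Type*} [NormedAddCommGroup X] [NormedSpace ℂ X] [CompleteSpace X]

/-- the norm of `S` as an operator from `X` to `X ⧸ Y` -/
noncomputable def NN (Y : Submodule ℂ X) (S : X →L[ℂ] X) : ℝ :=
  sInf {r : ℝ | 0 ≤ r ∧ ∀ x, Metric.infDist (S x) (Y : Set X) ≤ r * ‖x‖}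

theorem NN_bdd (Y : Submodule ℂ X) (S : X →L[ℂ] X) :
    BddBelow {r : ℝ | 0 ≤ r ∧ ∀ x, Metric.infDist (S x) (Y : Set X) ≤ r * ‖x‖} :=
  ⟨0, fun _ h => h.1⟩

theorem NN_ne (Y : Submodule ℂ X) (S : X →L[ℂ] X) :
    {r : ℝ | 0 ≤ r ∧ ∀ x, Metric.infDist (S x) (Y : Set X) ≤ r * ‖x‖}.Nonempty := by
  refine ⟨‖S‖, norm_nonneg _, fun x => ?_⟩
  refine (Metric.infDist_le_dist_of_mem (Y.zero_mem)).trans ?_
  rw [dist_zero_right]
  exact S.le_opNorm x

theorem NN_nonneg (Y : Submodule ℂ X) (S : X →L[ℂ] X) : 0 ≤ NN Y S :=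
  Real.sInf_nonneg fun _ h => h.1

theorem NN_le {Y : Submodule ℂ X} {S : X →L[ℂ] X} {r : ℝ} (h0 : 0 ≤ r)
    (h : ∀ x, Metric.infDist (S x) (Y : Set X) ≤ r * ‖x‖) : NN Y S ≤ r :=
  csInf_le (NN_bdd Y S) ⟨h0, h⟩

theorem NN_spec (Y : Submodule ℂ X) (S : X →L[ℂ] X) (x : X) :
    Metric.infDist (S x) (Y : Set X) ≤ NN Y S * ‖x‖ := by
  have h1 : ∀ ε : ℝ, 0 < ε → Metric.infDist (S x) (Y : Set X) ≤ NN Y S * ‖x‖ + ε * ‖x‖ := by
    intro ε hε
    obtain ⟨r, hr, hrN⟩ := exists_lt_of_csInf_lt (NN_ne Y S) (lt_add_of_pos_right (NN Y S) hε)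
    refine (hr.2 x).trans ?_
    rw [← add_mul]
    exact mul_le_mul_of_nonneg_right hrN.le (norm_nonneg _)
  by_cases hx : ‖x‖ = 0
  · have := h1 1 one_pos
    rw [hx] at this ⊢
    simpa using this
  · have hx' : 0 < ‖x‖ := lt_of_le_of_ne (norm_nonneg _) (Ne.symm hx)
    refine le_of_forall_pos_le_add fun ε hε => ?_
    have := h1 (ε / ‖x‖) (div_pos hε hx')
    rwa [div_mul_cancel₀ _ hx] at this

theorem NN_anti {Y Y' : Submodule ℂ X} (h : Y ≤ Y') (S : X →L[ℂ] X) : NN Y' S ≤ NN Y S :=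
  NN_le (NN_nonneg _ _) fun x =>
    (Metric.infDist_le_infDist_of_subset h ⟨0, Y.zero_mem⟩).trans (NN_spec Y S x)

theorem NN_sub (Y : Submodule ℂ X) (S S' : X →L[ℂ] X) : NN Y S ≤ NN Y S' + ‖S - S'‖ := by
  refine NN_le (add_nonneg (NN_nonneg _ _) (norm_nonneg _)) fun x => ?_
  rw [add_mul]
  refine (Metric.infDist_le_infDist_add_dist (y := S' x)).trans ?_
  refine add_le_add (NN_spec Y S' x) ?_
  rw [dist_eq_norm, ← sub_apply]
  exact (S - S').le_opNorm x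

theorem NN_eq_zero {Y : Submodule ℂ X} {S : X →L[ℂ] X} (h : ∀ x, S x ∈ Y) : NN Y S = 0 := by
  refine le_antisymm (NN_le le_rfl fun x => ?_) (NN_nonneg _ _)
  rw [Metric.infDist_zero_of_mem (h x), zero_mul]

theorem mem_of_NN_le_zero {Y : Submodule ℂ X} (hY : IsClosed (Y : Set X)) {S : X →L[ℂ] X}
    (h : NN Y S ≤ 0) (x : X) : S x ∈ Y := by
  have h1 : Metric.infDist (S x) (Y : Set X) ≤ 0 := by
    refine (NN_spec Y S x).trans ?_
    exact mul_nonpos_of_nonpos_of_nonneg h (norm_nonneg _)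
  have h2 : Metric.infDist (S x) (Y : Set X) = 0 := le_antisymm h1 Metric.infDist_nonneg
  exact (hY.mem_iff_infDist_zero ⟨0, Y.zero_mem⟩).2 h2

/-- admissible subspaces -/
def AdmA (A : Subalgebra ℂ (X →L[ℂ] X)) (Y : Submodule ℂ X) : Prop :=
  IsClosed (Y : Set X) ∧ ¬ FiniteDimensional ℂ (X ⧸ Y) ∧ ∀ S ∈ A, ∀ x ∈ Y, S x ∈ Y

/-- a stable subspace -/
theorem exists_stableA (hX : ¬ FiniteDimensional ℂ X) (hbad : ¬ SQ ℂ X)
    (A : Subalgebra ℂ (X →L[ℂ] X)) (hA : TopologicalSpace.IsSeparable (A : Set (X →L[ℂ] X))) :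
    ∃ Y, AdmA A Y ∧ ∀ Y', AdmA A Y' → Y ≤ Y' → ∀ S ∈ A, NN Y S ≤ NN Y' S := by
  classical
  obtain ⟨c, hc, hAc⟩ := hA
  have hcne : c.Nonempty := by
    rcases c.eq_empty_or_nonempty with h | h
    · rw [h, closure_empty] at hAc
      exact absurd (hAc A.one_mem) (Set.notMem_empty _)
    · exact h
  obtain ⟨D, hD⟩ := hc.exists_eq_range hcne
  have hmin : ∀ (n : ℕ) (Y : {Y // AdmA A Y}), ∃ Y' : {Y // AdmA A Y}, Y.1 ≤ Y'.1 ∧
      ∀ Y'' : {Y // AdmA A Y}, Y.1 ≤ Y''.1 →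
        NN Y'.1 (D n.unpair.1) ≤ NN Y''.1 (D n.unpair.1) + (1 / 2) ^ n.unpair.2 := by
    intro n Y
    set B : Set ℝ := {d | ∃ Y' : {Y // AdmA A Y}, Y.1 ≤ Y'.1 ∧ NN Y'.1 (D n.unpair.1) = d} with hB
    have hne : B.Nonempty := ⟨_, Y, le_rfl, rfl⟩
    have hbd : BddBelow B := ⟨0, by
      rintro _ ⟨Y', _, rfl⟩
      exact NN_nonneg _ _⟩
    obtain ⟨_, ⟨Y', hY', rfl⟩, hlt⟩ := exists_lt_of_csInf_lt hne
      (lt_add_of_pos_right (sInf B) (show (0 : ℝ) < (1 / 2) ^ n.unpair.2 by positivity))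
    refine ⟨Y', hY', fun Y'' hY'' => ?_⟩
    have := csInf_le hbd (show NN Y''.1 (D n.unpair.1) ∈ B from ⟨Y'', hY'', rfl⟩)
    linarith
  choose f hf1 hf2 using hmin
  have hbot : AdmA A ⊥ := by
    refine ⟨isClosed_singleton, ?_, ?_⟩
    · intro h
      exact hX (Module.Finite.equiv (Submodule.quotEquivOfEqBot (⊥ : Submodule ℂ X) rfl))
    · intro S _ x hx
      rw [Submodule.mem_bot] at hx ⊢
      rw [hx, map_zero]
  obtain ⟨Z, hZ⟩ : ∃ Z : ℕ → {Y // AdmA A Y}, ∀ n, Z (n + 1) = f n (Z n) :=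
    ⟨fun n => Nat.rec ⟨⊥, hbot⟩ (fun n Y => f n Y) n, fun n => rfl⟩
  have hmono : Monotone fun n => (Z n).1 := by
    refine monotone_nat_of_le_succ fun n => ?_
    show (Z n).1 ≤ (Z (n + 1)).1
    rw [hZ]
    exact hf1 n (Z n)
  set Y : Submodule ℂ X := (⨆ n, (Z n).1).topologicalClosure with hY
  have hle : ∀ n, (Z n).1 ≤ Y := fun n =>
    (le_iSup (fun n => (Z n).1) n).trans (Submodule.le_topologicalClosure _)
  have hYA : AdmA A Y := by
    refine ⟨Submodule.isClosed_topologicalClosure _,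
      infinite_limit hbad (fun n => (Z n).1) hmono (fun n => (Z n).2.1) (fun n => (Z n).2.2.1), ?_⟩
    intro S hS x hx
    have h1 : x ∈ closure ((⨆ n, (Z n).1 : Submodule ℂ X) : Set X) := hx
    have h2 : S x ∈ closure ((⨆ n, (Z n).1 : Submodule ℂ X) : Set X) := by
      refine map_mem_closure S.continuous h1 ?_
      intro w hw
      obtain ⟨n, hn⟩ := (Submodule.mem_iSup_of_directed _ hmono.directed_le).1 hw
      exact Submodule.mem_iSup_of_mem n ((Z n).2.2.2 S hS w hn)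
    exact h2
  refine ⟨Y, hYA, ?_⟩
  intro Y' hY' hYY' S hS
  have hDk : ∀ k, NN Y (D k) ≤ NN Y' (D k) := by
    intro k
    have h1 : ∀ j : ℕ, NN Y (D k) ≤ NN Y' (D k) + (1 / 2) ^ j := by
      intro j
      obtain ⟨n, hn⟩ : ∃ n : ℕ, n.unpair = (k, j) := ⟨Nat.pair k j, Nat.unpair_pair k j⟩
      have h2 := hf2 n (Z n) ⟨Y', hY'⟩ ((hle n).trans hYY')
      rw [← hZ, hn] at h2
      exact (NN_anti (hle (n + 1)) _).trans h2
    have h3 : Filter.Tendsto (fun j : ℕ => NN Y' (D k) + (1 / 2 : ℝ) ^ j) Filter.atTop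
        (nhds (NN Y' (D k) + 0)) :=
      tendsto_const_nhds.add (tendsto_pow_atTop_nhds_zero_of_lt_one (by norm_num) (by norm_num))
    rw [add_zero] at h3
    exact ge_of_tendsto' h3 h1
  refine le_of_forall_pos_le_add fun ε hε => ?_
  have hSc := hAc hS
  rw [Metric.mem_closure_iff] at hSc
  obtain ⟨R, hR, hSR⟩ := hSc (ε / 2) (by positivity)
  rw [hD] at hR
  obtain ⟨k, rfl⟩ := hR
  rw [dist_eq_norm] at hSR
  have h4 := NN_sub Y S (D k)
  have h5 := NN_sub Y' (D k) S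
  rw [norm_sub_rev] at h5
  have h6 := hDk k
  linarith

/-- the invariant subspace generated by a set -/
theorem exists_genA (A : Subalgebra ℂ (X →L[ℂ] X)) (U : Set X) :
    ∃ W : Submodule ℂ X, U ⊆ W ∧ (∀ S ∈ A, ∀ x ∈ W, S x ∈ W) ∧
      (∀ P : Submodule ℂ X, (∀ S ∈ A, ∀ u ∈ U, S u ∈ P) → W ≤ P) ∧
      (TopologicalSpace.IsSeparable (A : Set (X →L[ℂ] X)) → TopologicalSpace.IsSeparable U →
        TopologicalSpace.IsSeparable (W : Set X)) := by
  set B : Set X := (fun p : (X →L[ℂ] X) × X => p.1 p.2) '' ((A : Set (X →L[ℂ] X)) ×ˢ U) with hB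
  refine ⟨Submodule.span ℂ B, ?_, ?_, ?_, ?_⟩
  · intro u hu
    exact Submodule.subset_span ⟨(1, u), ⟨A.one_mem, hu⟩, by simp⟩
  · intro S hS x hx
    have h3 : Submodule.span ℂ B ≤ (Submodule.span ℂ B).comap (S : X →ₗ[ℂ] X) := by
      rw [Submodule.span_le]
      rintro _ ⟨⟨R, u⟩, ⟨hR, hu⟩, rfl⟩
      exact Submodule.subset_span ⟨(S * R, u), ⟨A.mul_mem hS hR, hu⟩, by simp⟩
    exact h3 hx
  · intro P hP
    rw [Submodule.span_le]
    rintro _ ⟨⟨R, u⟩, ⟨hR, hu⟩, rfl⟩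
    exact hP R hR u hu
  · intro hA hU
    have h1 : Continuous fun p : (X →L[ℂ] X) × X => p.1 p.2 :=
      isBoundedBilinearMap_apply.continuous
    exact ((hA.prod hU).image h1).span (R := ℂ)

theorem closure_inv (A : Subalgebra ℂ (X →L[ℂ] X)) (V : Submodule ℂ X)
    (hV : ∀ S ∈ A, ∀ x ∈ V, S x ∈ V) : ∀ S ∈ A, ∀ x ∈ V.topologicalClosure,
      S x ∈ V.topologicalClosure := by
  intro S hS x hx
  have h1 : x ∈ closure (V : Set X) := hx
  exact map_mem_closure S.continuous h1 fun w hw => hV S hS w hw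

theorem sup_inv (A : Subalgebra ℂ (X →L[ℂ] X)) {V W : Submodule ℂ X}
    (hV : ∀ S ∈ A, ∀ x ∈ V, S x ∈ V) (hW : ∀ S ∈ A, ∀ x ∈ W, S x ∈ W) :
    ∀ S ∈ A, ∀ x ∈ V ⊔ W, S x ∈ V ⊔ W := by
  intro S hS x hx
  obtain ⟨a, ha, b, hb, rfl⟩ := Submodule.mem_sup.1 hx
  rw [map_add]
  exact Submodule.add_mem_sup (hV S hS a ha) (hW S hS b hb)

/-- the structure theorem for separable algebras -/
theorem structureA (hX : ¬ FiniteDimensional ℂ X) (hbad : ¬ HasSepQuot ℂ X)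
    (A : Subalgebra ℂ (X →L[ℂ] X)) (hA : TopologicalSpace.IsSeparable (A : Set (X →L[ℂ] X))) :
    ∃ Y : Submodule ℂ X, IsClosed (Y : Set X) ∧ ¬ FiniteDimensional ℂ (X ⧸ Y) ∧
      (∀ S ∈ A, ∀ x ∈ Y, S x ∈ Y) ∧
      (∀ S ∈ A, TopologicalSpace.IsSeparable (Set.range S) → ∀ x, S x ∈ Y) ∧
      (∀ S ∈ A, (∀ R ∈ A, ∀ x, R (S x) - S (R x) ∈ Y) → ∃ c : ℂ, ∀ x, S x - c • x ∈ Y) ∧
      (∀ S ∈ A, ∀ R ∈ A, (∀ Q ∈ A, ∀ x, S (Q (R x)) ∈ Y) → (∀ x, S x ∈ Y) ∨ ∀ x, R x ∈ Y) ∧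
      (∀ Y' : Submodule ℂ X, Y ≤ Y' → IsClosed (Y' : Set X) → ¬ FiniteDimensional ℂ (X ⧸ Y') →
        (∀ S ∈ A, ∀ x ∈ Y', S x ∈ Y') → ∀ S ∈ A, ∀ r : ℝ, 0 ≤ r →
          (∀ x, Metric.infDist (S x) (Y' : Set X) ≤ r * ‖x‖) →
          ∀ x, Metric.infDist (S x) (Y : Set X) ≤ r * ‖x‖) := by
  have hbad' : ¬ SQ ℂ X := fun h => hbad (hasSepQuot_of_SQ h)
  obtain ⟨Y, ⟨hYc, hYinf, hYA⟩, hst⟩ := exists_stableA hX hbad' A hA
  have hkill : ∀ S ∈ A, ∀ Y', AdmA A Y' → Y ≤ Y' → (∀ x, S x ∈ Y') → ∀ x, S x ∈ Y := by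
    intro S hS Y' hY' hYY' h
    refine mem_of_NN_le_zero hYc ?_
    rw [← NN_eq_zero h]
    exact hst Y' hY' hYY' S hS
  have hsepU : ∀ U : Set X, TopologicalSpace.IsSeparable U → ∀ S ∈ A,
      (∀ x, ∃ u ∈ U, S x - u ∈ Y) → ∀ x, S x ∈ Y := by
    intro U hU S hS hSU
    obtain ⟨W, hUW, hWA, -, hWs⟩ := exists_genA A U
    refine hkill S hS (Y ⊔ W).topologicalClosure ⟨Submodule.isClosed_topologicalClosure _,
      infinite_sup hbad' Y W hYc hYinf (hWs hA hU), closure_inv A _ (sup_inv A hYA hWA)⟩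
      (le_sup_left.trans (Submodule.le_topologicalClosure _)) ?_
    intro x
    obtain ⟨u, hu, hxu⟩ := hSU x
    refine Submodule.le_topologicalClosure _ ?_
    have e : S x = (S x - u) + u := by abel
    rw [e]
    exact Submodule.add_mem_sup hxu (hUW hu)
  refine ⟨Y, hYc, hYinf, hYA, ?_, ?_, ?_, ?_⟩
  · intro S hS hsep
    exact hsepU _ hsep S hS fun x => ⟨S x, ⟨x, rfl⟩, by rw [sub_self]; exact Y.zero_mem⟩
  · intro S hS hcomm
    obtain ⟨Y', c, h1, h2, h3, h4, h5⟩ := estep hbad' (A : Set (X →L[ℂ] X)) S hS Y hcomm hYc hYinf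
      hYA
    refine ⟨c, ?_⟩
    have h6 : S - c • (1 : X →L[ℂ] X) ∈ A :=
      A.sub_mem hS (A.smul_mem A.one_mem c)
    have h7 := hkill _ h6 Y' ⟨h2, h3, h4⟩ h1 (fun x => by simpa using h5 x)
    intro x
    simpa using h7 x
  · intro S hS R hR hSR
    by_cases hRY : ∀ x, R x ∈ Y
    · exact Or.inr hRY
    · left
      obtain ⟨W, hUW, hWA, hWP, -⟩ := exists_genA A (Set.range R)
      set Y' : Submodule ℂ X := (Y ⊔ W).topologicalClosure with hY'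
      have hfin : FiniteDimensional ℂ (X ⧸ Y') := by
        by_contra hinf
        exact hRY (hkill R hR Y' ⟨Submodule.isClosed_topologicalClosure _, hinf,
          closure_inv A _ (sup_inv A hYA hWA)⟩
          (le_sup_left.trans (Submodule.le_topologicalClosure _))
          fun x => Submodule.le_topologicalClosure _ (Submodule.mem_sup_right (hUW ⟨x, rfl⟩)))
      have hSY' : ∀ y ∈ Y', S y ∈ Y := by
        intro y hy
        have h1 : Y ⊔ W ≤ Y.comap (S : X →ₗ[ℂ] X) := by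
          refine sup_le (fun y hy => hYA S hS y hy) (hWP _ ?_)
          rintro Q hQ _ ⟨x, rfl⟩
          exact hSR Q hQ x
        have h2 : IsClosed ((Y.comap (S : X →ₗ[ℂ] X) : Submodule ℂ X) : Set X) :=
          hYc.preimage S.continuous
        exact Submodule.topologicalClosure_minimal _ h1 h2 hy
      obtain ⟨F, hF⟩ := Submodule.exists_isCompl Y'
      have hFfin : FiniteDimensional ℂ F :=
        Module.Finite.equiv (Submodule.quotientEquivOfIsCompl Y' F hF)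
      refine hsepU (S '' (F : Set X)) ?_ S hS ?_
      · refine TopologicalSpace.IsSeparable.image ?_ S.continuous
        obtain ⟨t, ht⟩ : ∃ t : Finset X, Submodule.span ℂ (t : Set X) = F :=
          (Submodule.fg_iff_finiteDimensional F).2 hFfin
        rw [← ht]
        exact (t.countable_toSet.isSeparable).span (R := ℂ)
      · intro x
        have hx : x ∈ Y' ⊔ F := by rw [hF.sup_eq_top]; trivial
        obtain ⟨y, hy, g, hg, rfl⟩ := Submodule.mem_sup.1 hx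
        refine ⟨S g, ⟨g, hg, rfl⟩, ?_⟩
        rw [map_add, add_sub_cancel_right]
        exact hSY' y hy
  · intro Y' hYY' h1 h2 h3 S hS r hr h4 x
    refine (NN_spec Y S x).trans ?_
    refine mul_le_mul_of_nonneg_right ?_ (norm_nonneg _)
    exact (hst Y' ⟨h1, h2, h3⟩ hYY' S hS).trans (NN_le hr h4)

end Vale.Agent.P129s
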