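import Mathlib

/-! P129, rows R6 and R7: surjectivity of `T - l` and perturbation series. -/

namespace Vale.Agent.P129s

open Filter Topology Set

namespace Surj

variable {X : Type*} [NormedAddCommGroup X] [NormedSpace ℂ X] [CompleteSpace X]

/-- The perturbation series. -/
theorem series (A : X →L[ℂ] X) (u f : ℕ → X) (c C : ℝ) (hc : 0 < c)
    (hu : ∀ n, ‖u n‖ ≤ C * c ^ n) (hA : ∀ n, A (u (n + 1)) + f (n + 1) = u n) (δ : ℂ)
    (hδ : ‖δ‖ * c ≤ 1 / 4) :
    ∃ x : X, ‖x - u 0‖ ≤ C / 3 ∧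
      Tendsto (fun n => ∑ k ∈ Finset.range n, δ ^ (k + 1) • f (k + 1)) atTop
        (𝓝 (A (u 0) - (A x - δ • x))) := by
  have hC : 0 ≤ C := by
    have := (norm_nonneg _).trans (hu 0)
    simpa using this
  have hterm : ∀ n, ‖δ ^ n • u n‖ ≤ C * (1 / 4 : ℝ) ^ n := by
    intro n
    rw [norm_smul, norm_pow]
    calc ‖δ‖ ^ n * ‖u n‖ ≤ ‖δ‖ ^ n * (C * c ^ n) := by gcongr; exact hu n
      _ = C * (‖δ‖ * c) ^ n := by rw [mul_pow]; ring
      _ ≤ C * (1 / 4 : ℝ) ^ n := by gcongr
  have hgeo : Summable (fun n : ℕ => C * (1 / 4 : ℝ) ^ n) :=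
    (summable_geometric_of_lt_one (by norm_num) (by norm_num)).mul_left C
  have hsum : Summable (fun n => δ ^ n • u n) := Summable.of_norm_bounded hgeo hterm
  refine ⟨∑' n, δ ^ n • u n, ?_, ?_⟩
  · have h1 : (∑' n, δ ^ n • u n) = u 0 + ∑' n, δ ^ (n + 1) • u (n + 1) := by
      rw [hsum.tsum_eq_zero_add]
      simp
    rw [h1, add_sub_cancel_left]
    have h2 : Summable (fun n : ℕ => C * (1 / 4 : ℝ) ^ (n + 1)) :=
      (summable_nat_add_iff 1).mpr hgeo
    have h3 : ‖∑' n, δ ^ (n + 1) • u (n + 1)‖ ≤ ∑' n : ℕ, C * (1 / 4 : ℝ) ^ (n + 1) :=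
      tsum_of_norm_bounded h2.hasSum fun n => hterm (n + 1)
    refine h3.trans (le_of_eq ?_)
    have h4 : ∀ n : ℕ, C * (1 / 4 : ℝ) ^ (n + 1) = (C / 4) * (1 / 4 : ℝ) ^ n := by
      intro n
      ring
    simp_rw [h4]
    rw [tsum_mul_left, tsum_geometric_of_lt_one (by norm_num) (by norm_num)]
    ring
  · have h1 : Tendsto (fun n => ∑ k ∈ Finset.range n, δ ^ k • u k) atTop
        (𝓝 (∑' n, δ ^ n • u n)) := hsum.hasSum.tendsto_sum_nat
    set x := ∑' n, δ ^ n • u n with hx
    have h2 : Tendsto (fun n => ∑ k ∈ Finset.range (n + 1), δ ^ k • u k) atTop (𝓝 x) :=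
      h1.comp (tendsto_add_atTop_nat 1)
    have h3 : Tendsto (fun n => A (u 0) - (A (∑ k ∈ Finset.range (n + 1), δ ^ k • u k)
        - δ • ∑ k ∈ Finset.range n, δ ^ k • u k)) atTop (𝓝 (A (u 0) - (A x - δ • x))) :=
      tendsto_const_nhds.sub (((A.continuous.tendsto x).comp h2).sub (h1.const_smul δ))
    refine h3.congr fun n => ?_
    rw [Finset.sum_range_succ']
    simp only [pow_zero, one_smul, map_add, map_sum, map_smul, Finset.smul_sum, smul_smul]
    have h4 : ∀ k, δ ^ (k + 1) • f (k + 1) = (δ * δ ^ k) • u k - δ ^ (k + 1) • A (u (k + 1)) := by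
      intro k
      rw [← hA k, smul_add, pow_succ']
      abel
    simp_rw [h4, Finset.sum_sub_distrib]
    abel

end Surj

/-- R6 -/
theorem exists_not_surjective {X : Type*} [NormedAddCommGroup X] [NormedSpace ℂ X]
    [CompleteSpace X] [Nontrivial X] (T : X →L[ℂ] X) :
    ∃ l : ℂ, ¬ Function.Surjective (T - l • ContinuousLinearMap.id ℂ X) := by
  by_contra hcon
  push Not at hcon
  -- a boundary point of the spectrum
  have hne : (spectrum ℂ T).Nonempty := spectrum.nonempty T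
  have hcpt : IsCompact (spectrum ℂ T) := spectrum.isCompact T
  have hfr : (frontier (spectrum ℂ T)).Nonempty := by
    rw [nonempty_frontier_iff]
    refine ⟨hne, fun h => ?_⟩
    rw [h] at hcpt
    exact noncompact_univ ℂ hcpt
  obtain ⟨l, hl⟩ := hfr
  have hl1 : l ∈ spectrum ℂ T := by
    have := hl.1
    rwa [(spectrum.isClosed T).closure_eq] at this
  have hl2 : l ∈ closure (spectrum ℂ T)ᶜ := by
    rw [frontier_eq_closure_inter_closure] at hl
    exact hl.2
  set A : X →L[ℂ] X := T - l • ContinuousLinearMap.id ℂ X with hAdef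
  have hunitA : ∀ m : ℂ, IsUnit (T - m • ContinuousLinearMap.id ℂ X) ↔ m ∉ spectrum ℂ T := by
    intro m
    rw [spectrum.notMem_iff]
    have h1 : (algebraMap ℂ (X →L[ℂ] X)) m - T = -(T - m • ContinuousLinearMap.id ℂ X) := by
      rw [Algebra.algebraMap_eq_smul_one]
      show m • ContinuousLinearMap.id ℂ X - T = _
      abel
    rw [h1, IsUnit.neg_iff]
  have hsurj : Function.Surjective A := hcon l
  have hninj : ¬ Function.Injective A := by
    intro hinj
    have h1 : IsUnit A := ContinuousLinearMap.isUnit_iff_bijective.mpr ⟨hinj, hsurj⟩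
    exact (hunitA l).mp h1 hl1
  obtain ⟨x0, hx0, hAx0⟩ : ∃ x0 : X, x0 ≠ 0 ∧ A x0 = 0 := by
    by_contra h
    push Not at h
    apply hninj
    rw [injective_iff_map_eq_zero]
    intro a ha
    by_contra ha'
    exact h a ha' ha
  obtain ⟨c, hc, hpre⟩ := ContinuousLinearMap.exists_preimage_norm_le A hsurj
  choose s hs1 hs2 using hpre
  -- the chain
  let u : ℕ → X := fun n => s^[n] x0
  have hu : ∀ n, ‖u n‖ ≤ ‖x0‖ * c ^ n := by
    intro n
    induction n with
    | zero => simp [u]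
    | succ n ih =>
      show ‖s^[n + 1] x0‖ ≤ _
      rw [Function.iterate_succ_apply']
      calc ‖s (s^[n] x0)‖ ≤ c * ‖s^[n] x0‖ := hs2 _
        _ ≤ c * (‖x0‖ * c ^ n) := mul_le_mul_of_nonneg_left ih hc.le
        _ = ‖x0‖ * c ^ (n + 1) := by ring
  have hAu : ∀ n, A (u (n + 1)) + (0 : ℕ → X) (n + 1) = u n := by
    intro n
    show A (s^[n + 1] x0) + 0 = s^[n] x0
    rw [Function.iterate_succ_apply', hs1, add_zero]
  -- a nearby resolvent point
  obtain ⟨m, hm, hml⟩ := Metric.mem_closure_iff.mp hl2 (1 / (4 * c)) (by positivity)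
  have hδ : ‖m - l‖ * c ≤ 1 / 4 := by
    rw [dist_comm, dist_eq_norm, lt_div_iff₀ (by positivity)] at hml
    linarith
  obtain ⟨x, hx, hlim⟩ := Surj.series A u 0 c ‖x0‖ hc hu hAu (m - l) hδ
  have h0 : A (u 0) - (A x - (m - l) • x) = 0 := by
    refine tendsto_nhds_unique hlim ?_
    simp
  have hu0 : u 0 = x0 := rfl
  rw [hu0, hAx0, zero_sub, neg_eq_zero] at h0
  have hx0' : x ≠ 0 := by
    rintro rfl
    rw [hu0, zero_sub, norm_neg] at hx
    have := norm_pos_iff.mpr hx0
    linarith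
  have hker : (T - m • ContinuousLinearMap.id ℂ X) x = 0 := by
    rw [← h0, hAdef]
    simp only [sub_apply, smul_apply,
      ContinuousLinearMap.id_apply, sub_smul]
    abel
  have hbij := ContinuousLinearMap.isUnit_iff_bijective.mp ((hunitA m).mpr hm)
  apply hx0'
  apply hbij.1
  rw [hker, map_zero]

end Vale.Agent.P129s
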