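import Vale.Agent.P129s.SQ

/-!
# P129: separable quotients of quotients and of subspaces of finite codimension
-/

open Submodule

namespace Vale.Agent.P129s

open Vale.Agent.P129

variable {𝕜 X Z : Type*} [RCLike 𝕜] [NormedAddCommGroup X] [NormedSpace 𝕜 X]
  [NormedAddCommGroup Z] [NormedSpace 𝕜 Z]

theorem isOpen_mkQ_image (Y : Submodule 𝕜 X) {V : Set X} (hV : IsOpen V) :
    IsOpen (Y.mkQ '' V) := (QuotientAddGroup.isOpenMap_coe (N := Y.toAddSubgroup)) V hV

/-- R5 -/
theorem sq_of_quotient (Y : Submodule 𝕜 X) [IsClosed (Y : Set X)] (h : SQ 𝕜 (X ⧸ Y)) :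
    SQ 𝕜 X := by
  obtain ⟨M, S, hM, hS, hd, hinf⟩ := h
  choose g hg using Submodule.mkQ_surjective Y
  refine ⟨M.comap Y.mkQ, g '' S, ?_, hS.image g, ?_, ?_⟩
  · exact hM.preimage (continuous_mkQ Y)
  · rw [← Submodule.dense_iff_topologicalClosure_eq_top] at hd ⊢
    intro x
    rw [mem_closure_iff_nhds]
    intro U hU
    obtain ⟨V, hVU, hVo, hxV⟩ := mem_nhds_iff.1 hU
    obtain ⟨q, ⟨v, hv, rfl⟩, hq⟩ := hd.inter_open_nonempty _ (isOpen_mkQ_image Y hVo)
      ⟨Y.mkQ x, x, hxV, rfl⟩
    refine ⟨v, hVU hv, ?_⟩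
    obtain ⟨s, hs, m, hm, hsm⟩ := Submodule.mem_sup.1 hq
    have hspan : Submodule.span 𝕜 S = (Submodule.span 𝕜 (g '' S)).map Y.mkQ := by
      rw [Submodule.map_span, Set.image_image]
      congr 1
      ext z
      simp [hg]
    rw [hspan] at hs
    obtain ⟨s', hs', rfl⟩ := Submodule.mem_map.1 hs
    have e : v = s' + (v - s') := by abel
    rw [e]
    refine Submodule.add_mem_sup hs' ?_
    rw [Submodule.mem_comap, map_sub, ← hsm, add_sub_cancel_left]
    exact hm
  · intro hfin
    apply hinf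
    have hsurj : Function.Surjective (Submodule.mapQ (M.comap Y.mkQ) M Y.mkQ le_rfl) := by
      intro z
      obtain ⟨y, rfl⟩ := Submodule.mkQ_surjective M z
      obtain ⟨x, rfl⟩ := Submodule.mkQ_surjective Y y
      exact ⟨(M.comap Y.mkQ).mkQ x, by simp⟩
    exact Module.Finite.of_surjective _ hsurj

/-- R4 -/
theorem sq_of_finite_codim (W : Submodule 𝕜 X) (hW : IsClosed (W : Set X))
    (hfin : FiniteDimensional 𝕜 (X ⧸ W)) (h : SQ 𝕜 W) : SQ 𝕜 X := by
  obtain ⟨M, S, hM, hS, hd, hinf⟩ := h
  obtain ⟨F, hF⟩ := Submodule.exists_isCompl W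
  have hFfin : FiniteDimensional 𝕜 F :=
    Module.Finite.equiv (Submodule.quotientEquivOfIsCompl W F hF)
  obtain ⟨t, ht⟩ : ∃ t : Finset X, Submodule.span 𝕜 (t : Set X) = F :=
    (Submodule.fg_iff_finiteDimensional F).2 hFfin
  refine ⟨M.map W.subtype, (W.subtype '' S) ∪ t, ?_, (hS.image _).union t.countable_toSet, ?_, ?_⟩
  · have : IsClosedMap (W.subtype : W → X) := hW.isClosedEmbedding_subtypeVal.isClosedMap
    exact this _ hM
  · rw [eq_top_iff]
    set C := (Submodule.span 𝕜 (W.subtype '' S ∪ (t : Set X)) ⊔ M.map W.subtype).topologicalClosure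
      with hC
    have h1 : F ≤ C := by
      rw [← ht]
      refine le_trans ?_ (Submodule.le_topologicalClosure _)
      exact (Submodule.span_mono Set.subset_union_right).trans le_sup_left
    have h2 : W ≤ C := by
      intro w hw
      rw [← Submodule.dense_iff_topologicalClosure_eq_top] at hd
      have h3 : (⟨w, hw⟩ : W) ∈ closure ((Submodule.span 𝕜 S ⊔ M : Submodule 𝕜 W) : Set W) :=
        hd _
      have h4 : W.subtype (⟨w, hw⟩ : W) ∈ closure (((Submodule.span 𝕜 (W.subtype '' S ∪ (t : Set X)) ⊔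
          M.map W.subtype : Submodule 𝕜 X)) : Set X) := by
        refine map_mem_closure (by fun_prop : Continuous (W.subtype : W → X)) h3 ?_
        intro y hy
        obtain ⟨a, ha, b, hb, rfl⟩ := Submodule.mem_sup.1 hy
        rw [map_add]
        refine Submodule.add_mem_sup ?_ ⟨b, hb, rfl⟩
        have h5 : W.subtype a ∈ (Submodule.span 𝕜 S).map W.subtype := ⟨a, ha, rfl⟩
        rw [Submodule.map_span] at h5
        exact Submodule.span_mono Set.subset_union_left h5
      exact h4
    rw [← hF.sup_eq_top]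
    exact sup_le h2 h1
  · intro hf
    apply hinf
    have hle : M ≤ (M.map W.subtype).comap W.subtype := Submodule.le_comap_map _ _
    have hinj : Function.Injective (Submodule.mapQ M (M.map W.subtype) W.subtype hle) := by
      rw [injective_iff_map_eq_zero]
      intro z hz
      obtain ⟨w, rfl⟩ := Submodule.mkQ_surjective M z
      simp only [Submodule.mkQ_apply, Submodule.mapQ_apply, Submodule.Quotient.mk_eq_zero] at hz ⊢
      obtain ⟨m, hm, hmw⟩ := hz
      have : m = w := Subtype.ext (by simpa using hmw)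
      rwa [← this]
    exact Module.Finite.of_injective _ hinj

end Vale.Agent.P129s
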